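import Mathlib
import Crest.Prelude.Def_AsymptoticConvexity

set_option autoImplicit false

namespace Crest.Agent.R125

open Finset

variable {X : Type} [NormedAddCommGroup X] [NormedSpace ℝ X]

/-- unbundled version of `IsCof` -/
def Cof (F : Set X) : Prop :=
  ∃ S : Submodule ℝ X, (S : Set X) = F ∧ IsClosed F ∧ FiniteDimensional ℝ (X ⧸ S)

/-- unbundled version of `IsEquivNorm` -/
def EquivN (N : X → ℝ) : Prop :=
  (∀ x y : X, N (x + y) ≤ N x + N y) ∧ (∀ (a : ℝ) (x : X), N (a • x) = abs a * N x) ∧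
    ∃ a b : ℝ, 0 < a ∧ ∀ x : X, a * ‖x‖ ≤ N x ∧ N x ≤ b * ‖x‖

/-- unbundled version of `IsAUC` -/
def AUC (N : X → ℝ) : Prop :=
  ∀ t : ℝ, 0 < t → ∃ c : ℝ, 0 < c ∧ ∀ x : X, N x = 1 → ∃ F : Set X, Cof F ∧
    ∀ y ∈ F, N y = 1 → c ≤ N (x + t • y) - 1

/-- common kernel of finitely many functionals -/
def kerSet (Φ : Finset (X →L[ℝ] ℝ)) : Set X := {y | ∀ φ ∈ Φ, φ y = 0}

lemma cof_kerSet (Φ : Finset (X →L[ℝ] ℝ)) : Cof (kerSet Φ) := by
  classical
  let T : X →L[ℝ] (Φ → ℝ) := ContinuousLinearMap.pi fun φ : Φ => (φ : X →L[ℝ] ℝ)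
  have hk : ((LinearMap.ker (T : X →ₗ[ℝ] (Φ → ℝ)) : Submodule ℝ X) : Set X) = kerSet Φ := by
    ext y
    simp only [SetLike.mem_coe, LinearMap.mem_ker, kerSet, Set.mem_ofPred_eq]
    constructor
    · intro h φ hφ
      exact congrFun h ⟨φ, hφ⟩
    · intro h
      funext φ
      exact h φ φ.2
  refine ⟨LinearMap.ker (T : X →ₗ[ℝ] (Φ → ℝ)), hk, ?_, ?_⟩
  · rw [← hk]; exact T.isClosed_ker
  · exact (LinearMap.quotKerEquivRange (T : X →ₗ[ℝ] (Φ → ℝ))).symm.finiteDimensional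

lemma Cof.smul_mem {F : Set X} (hF : Cof F) (a : ℝ) {y : X} (hy : y ∈ F) : a • y ∈ F := by
  obtain ⟨S, rfl, -, -⟩ := hF
  exact S.smul_mem a hy

lemma Cof.approx {F : Set X} (hF : Cof F) {ε : ℝ} (hε : 0 < ε) :
    ∃ (Φ : Finset (X →L[ℝ] ℝ)) (δ : ℝ), 0 < δ ∧
      ∀ y, (∀ φ ∈ Φ, |φ y| ≤ δ) → ∃ z ∈ F, ‖y - z‖ ≤ ε := by
  classical
  obtain ⟨S, rfl, hcl, hfd⟩ := hF
  have : IsClosed (S : Set X) := hcl
  let b := Module.finBasis ℝ (X ⧸ S)
  have hq : Continuous (S.mkQ) := continuous_quot_mk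
  let φ : Fin (Module.finrank ℝ (X ⧸ S)) → X →L[ℝ] ℝ := fun i =>
    ⟨(b.coord i).comp S.mkQ, (LinearMap.continuous_of_finiteDimensional (b.coord i)).comp hq⟩
  choose e he using fun i => S.mkQ_surjective (b i)
  have hpos : 0 < ∑ i, ‖e i‖ + 1 := by positivity
  refine ⟨Finset.univ.image φ, ε / (∑ i, ‖e i‖ + 1), by positivity, fun y hy => ?_⟩
  refine ⟨y - ∑ i, φ i y • e i, ?_, ?_⟩
  · rw [SetLike.mem_coe, ← Submodule.Quotient.mk_eq_zero, ← Submodule.mkQ_apply, map_sub, map_sum]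
    simp only [map_smul, he]
    rw [sub_eq_zero]
    exact (b.sum_repr (S.mkQ y)).symm
  · rw [sub_sub_cancel]
    refine (norm_sum_le _ _).trans ?_
    calc ∑ i, ‖φ i y • e i‖ ≤ ∑ i, ε / (∑ i, ‖e i‖ + 1) * ‖e i‖ := by
          refine Finset.sum_le_sum fun i _ => ?_
          rw [norm_smul, Real.norm_eq_abs]
          exact mul_le_mul_of_nonneg_right
            (hy _ (Finset.mem_image_of_mem φ (Finset.mem_univ i))) (norm_nonneg _)
      _ = ε / (∑ i, ‖e i‖ + 1) * ∑ i, ‖e i‖ := by rw [Finset.mul_sum]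
      _ ≤ ε / (∑ i, ‖e i‖ + 1) * (∑ i, ‖e i‖ + 1) := by gcongr; linarith
      _ = ε := by field_simp

/-- `x` is the root of a bounded weakly-null tree of height `j` -/
def Good (c C : ℝ) : ℕ → X → Prop
  | 0, x => c ≤ ‖x‖ ∧ ‖x‖ ≤ C
  | j + 1, x => c ≤ ‖x‖ ∧ ‖x‖ ≤ C ∧ ∀ (Φ : Finset (X →L[ℝ] ℝ)) (δ : ℝ), 0 < δ →
      ∃ x', Good c C j x' ∧ c ≤ ‖x' - x‖ ∧ ∀ φ ∈ Φ, |φ (x' - x)| ≤ δ

theorem not_auc_of_good {c C : ℝ} (hc : 0 < c) (h : ∀ n, ∃ x : X, Good c C n x) (N : X → ℝ)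
    (hN : EquivN N) : ¬ AUC N := by
  intro hA
  obtain ⟨hadd, hsm, a, b, ha, hab⟩ := hN
  obtain ⟨x0, hx0⟩ := h 0
  have hC : 0 < C := lt_of_lt_of_le hc (hx0.1.trans hx0.2)
  have hb : 0 < b := by
    have h1 := (hab x0).1
    have h2 := (hab x0).2
    have h3 : 0 < ‖x0‖ := lt_of_lt_of_le hc hx0.1
    by_contra hb
    push Not at hb
    nlinarith [mul_pos ha h3]
  obtain ⟨δ, hδ, hauc⟩ := hA (a * c / (2 * b * C)) (by positivity)
  have key : ∀ (j : ℕ) (x : X), Good c C j x → N x + j * (δ * a * c / 2) ≤ b * C := by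
    intro j
    induction j with
    | zero =>
      intro x hx
      have := (hab x).2
      have := mul_le_mul_of_nonneg_left hx.2 hb.le
      simp; linarith
    | succ j ih =>
      intro x hx
      obtain ⟨hx1, hx2, hx3⟩ := hx
      have hNx : a * c ≤ N x := (mul_le_mul_of_nonneg_left hx1 ha.le).trans (hab x).1
      have hNx0 : 0 < N x := lt_of_lt_of_le (by positivity) hNx
      have hNxC : N x ≤ b * C := (hab x).2.trans (mul_le_mul_of_nonneg_left hx2 hb.le)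
      obtain ⟨F, hF, hFy⟩ := hauc ((N x)⁻¹ • x) (by
        rw [hsm, abs_of_pos (inv_pos.mpr hNx0), inv_mul_cancel₀ hNx0.ne'])
      obtain ⟨Φ, η, hη, hΦ⟩ := hF.approx (ε := min (c / 2) (δ * a * c / (2 * b))) (by positivity)
      obtain ⟨x', hx', hc', hφ⟩ := hx3 Φ η hη
      obtain ⟨z, hzF, hz⟩ := hΦ _ hφ
      have hz1 : ‖x' - x - z‖ ≤ c / 2 := hz.trans (min_le_left _ _)
      have hz2 : ‖x' - x - z‖ ≤ δ * a * c / (2 * b) := hz.trans (min_le_right _ _)
      have hzn : c / 2 ≤ ‖z‖ := by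
        have := norm_sub_norm_le (x' - x) z
        linarith
      have hNz : a * (c / 2) ≤ N z := (mul_le_mul_of_nonneg_left hzn ha.le).trans (hab z).1
      have hNz0 : 0 < N z := lt_of_lt_of_le (by positivity) hNz
      have h1 := hFy ((N z)⁻¹ • z) (hF.smul_mem _ hzF) (by
        rw [hsm, abs_of_pos (inv_pos.mpr hNz0), inv_mul_cancel₀ hNz0.ne'])
      -- θ
      set t0 := a * c / (2 * b * C) with ht0
      set θ := t0 * N x / N z with hθ
      have ht0pos : 0 < t0 := by positivity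
      have hθ0 : 0 < θ := by positivity
      have hθ1 : θ ≤ 1 := by
        rw [hθ, div_le_one hNz0]
        calc t0 * N x ≤ t0 * (b * C) := by gcongr
          _ = a * (c / 2) := by rw [ht0]; field_simp
          _ ≤ N z := hNz
      have e1 : (N x)⁻¹ • x + t0 • (N z)⁻¹ • z = (N x)⁻¹ • ((1 - θ) • x + θ • (x + z)) := by
        have : (1 - θ) • x + θ • (x + z) = x + θ • z := by module
        rw [this, smul_add, smul_smul, smul_smul]
        congr 2
        rw [hθ]; field_simp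
      rw [e1, hsm, abs_of_pos (inv_pos.mpr hNx0)] at h1
      have h2 := hadd ((1 - θ) • x) (θ • (x + z))
      rw [hsm, hsm, abs_of_nonneg (by linarith), abs_of_pos hθ0] at h2
      have h3 : (1 + δ) * N x ≤ N ((1 - θ) • x + θ • (x + z)) := by
        have : (1 + δ) ≤ (N x)⁻¹ * N ((1 - θ) • x + θ • (x + z)) := by linarith
        calc (1 + δ) * N x ≤ (N x)⁻¹ * N ((1 - θ) • x + θ • (x + z)) * N x := by gcongr
          _ = _ := by field_simp
      have h4 : N x + δ * N x ≤ N (x + z) := by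
        have h5 : δ * N x ≤ θ * (N (x + z) - N x) := by nlinarith
        have h6 : 0 < δ * N x := by positivity
        have h7 : 0 < N (x + z) - N x := by
          by_contra h7
          push Not at h7
          nlinarith
        nlinarith
      have h5 : N (x + z) ≤ N x' + N (-(x' - x - z)) := by
        have := hadd x' (-(x' - x - z))
        rwa [show x' + -(x' - x - z) = x + z by abel] at this
      have h6 : N (-(x' - x - z)) ≤ δ * a * c / 2 := by
        refine (hab _).2.trans ?_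
        rw [norm_neg]
        calc b * ‖x' - x - z‖ ≤ b * (δ * a * c / (2 * b)) := by gcongr
          _ = _ := by field_simp
      have h7 := ih x' hx'
      have h8 : δ * (a * c) ≤ δ * N x := by gcongr
      push_cast
      nlinarith
  obtain ⟨n, hn⟩ := exists_nat_gt (b * C / (δ * a * c / 2))
  obtain ⟨x, hx⟩ := h n
  have h1 := key n x hx
  have h2 : 0 ≤ N x := le_trans (by positivity) (hab x).1
  rw [div_lt_iff₀ (by positivity)] at hn
  linarith

lemma equivN_norm : EquivN (fun x : X => ‖x‖) :=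
  ⟨norm_add_le, fun a x => by simp [norm_smul], 1, 1, one_pos, fun x => by simp⟩

theorem infinite_of_not_auc (h : ∀ N : X → ℝ, EquivN N → ¬ AUC N) : ¬ FiniteDimensional ℝ X := by
  intro hfd
  refine h _ equivN_norm fun t _ => ⟨1, one_pos, fun x _ => ⟨{0}, ⟨⊥, by simp, isClosed_singleton,
    inferInstance⟩, fun y hy hy1 => ?_⟩⟩
  rw [Set.mem_singleton_iff.mp hy] at hy1
  simp at hy1

/-- an upper `ℓ₂` estimate gives weak smallness -/
lemma exists_small_of_l2 (y : ℕ → X) (K : ℝ)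
    (hy : ∀ (A : Finset ℕ) (s : ℕ → ℝ), (∀ a, |s a| ≤ 1) →
      ‖∑ a ∈ A, s a • y a‖ ≤ K * Real.sqrt A.card)
    (Φ : Finset (X →L[ℝ] ℝ)) {δ : ℝ} (hδ : 0 < δ) : ∃ a, ∀ φ ∈ Φ, |φ (y a)| ≤ δ := by
  by_contra hcon
  push Not at hcon
  set M := ∑ φ ∈ Φ, ‖φ‖ * K with hM
  obtain ⟨m, hm⟩ := exists_nat_gt ((M / δ) ^ 2)
  have h1 : ∀ a, δ ≤ ∑ φ ∈ Φ, |φ (y a)| := by
    intro a
    obtain ⟨φ, hφ, h⟩ := hcon a
    exact h.le.trans (Finset.single_le_sum (f := fun φ : X →L[ℝ] ℝ => |φ (y a)|)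
      (fun _ _ => abs_nonneg _) hφ)
  have h2 : m * δ ≤ ∑ a ∈ Finset.range m, ∑ φ ∈ Φ, |φ (y a)| := by
    have := Finset.sum_le_sum fun a (_ : a ∈ Finset.range m) => h1 a
    simpa using this
  have h3 : ∀ φ : X →L[ℝ] ℝ, ∑ a ∈ Finset.range m, |φ (y a)| ≤ ‖φ‖ * K * Real.sqrt m := by
    intro φ
    have h4 := hy (Finset.range m) (fun a => if 0 ≤ φ (y a) then 1 else -1)
      (fun a => by split_ifs <;> simp)
    rw [Finset.card_range] at h4
    have h5 : ∑ a ∈ Finset.range m, |φ (y a)| =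
        φ (∑ a ∈ Finset.range m, (if 0 ≤ φ (y a) then (1 : ℝ) else -1) • y a) := by
      rw [map_sum]
      refine Finset.sum_congr rfl fun a _ => ?_
      rw [map_smul, smul_eq_mul]
      split_ifs with h
      · rw [abs_of_nonneg h, one_mul]
      · rw [abs_of_neg (not_le.mp h)]; ring
    rw [h5]
    refine (le_abs_self _).trans ((φ.le_opNorm _).trans ?_)
    rw [mul_assoc]
    exact mul_le_mul_of_nonneg_left h4 (norm_nonneg _)
  rw [Finset.sum_comm] at h2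
  have h4 : m * δ ≤ M * Real.sqrt m := by
    refine h2.trans ?_
    rw [hM, Finset.sum_mul]
    exact Finset.sum_le_sum fun φ _ => h3 φ
  have hm0 : (0 : ℝ) < m := lt_of_le_of_lt (sq_nonneg _) hm
  have hs : 0 < Real.sqrt m := Real.sqrt_pos.mpr hm0
  have hss : Real.sqrt m * Real.sqrt m = m := Real.mul_self_sqrt hm0.le
  have h5 : Real.sqrt m * δ ≤ M := by
    have : Real.sqrt m * (Real.sqrt m * δ) ≤ Real.sqrt m * M := by nlinarith
    exact le_of_mul_le_mul_left this hs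
  have h6 : Real.sqrt m ≤ M / δ := by rw [le_div_iff₀ hδ]; exact h5
  have h7 : (m : ℝ) ≤ (M / δ) ^ 2 := by
    rw [← hss, sq]
    exact mul_le_mul h6 h6 hs.le (hs.le.trans h6)
  linarith

/-- trees of finite height -/
theorem good_of_tree {c C : ℝ} (b : List ℕ → X) (n : ℕ)
    (h1 : ∀ s, s ≠ [] → s.length ≤ n + 1 → c ≤ ‖b s‖ ∧ ‖b s‖ ≤ C)
    (h2 : ∀ s a, s.length ≤ n → c ≤ ‖b (a :: s) - b s‖)
    (h3 : ∀ s, s.length ≤ n → ∃ K : ℝ, ∀ (A : Finset ℕ) (σ : ℕ → ℝ), (∀ a, |σ a| ≤ 1) →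
      ‖∑ a ∈ A, σ a • (b (a :: s) - b s)‖ ≤ K * Real.sqrt A.card) :
    ∃ x : X, Good c C n x := by
  have key : ∀ j s, s ≠ [] → s.length + j ≤ n + 1 → Good c C j (b s) := by
    intro j
    induction j with
    | zero => intro s hs hl; exact h1 s hs hl
    | succ j ih =>
      intro s hs hl
      obtain ⟨h4, h5⟩ := h1 s hs (by omega)
      refine ⟨h4, h5, fun Φ δ hδ => ?_⟩
      obtain ⟨K, hK⟩ := h3 s (by omega)
      obtain ⟨a, ha⟩ := exists_small_of_l2 (fun a => b (a :: s) - b s) K hK Φ hδ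
      exact ⟨b (a :: s), ih _ (by simp) (by simp; omega), h2 s a (by omega), ha⟩
  exact ⟨b [0], key n [0] (by simp) (by simp; omega)⟩

end Crest.Agent.R125
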