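import Mathlib
import Crest.Prelude.Def_Diamond
import Crest.Agent.R125.Basic

set_option autoImplicit false

namespace Crest.Agent.R125

open Crest.AnalysisR Filter Topology

section graph

lemma adj_iff (k : ℕ) (u v : DiamondVertex k) : (diamondGraph k).Adj u v ↔ u ≠ v ∧
    ((∃ e, diamondSrc k e = u ∧ diamondTgt k e = v) ∨
      ∃ e, diamondSrc k e = v ∧ diamondTgt k e = u) :=
  SimpleGraph.fromRel_adj _ u v

lemma adj_or_eq (k : ℕ) (e : DiamondEdge k) :
    (diamondGraph k).Adj (diamondSrc k e) (diamondTgt k e) ∨ diamondSrc k e = diamondTgt k e := by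
  by_cases h : diamondSrc k e = diamondTgt k e
  · exact Or.inr h
  · exact Or.inl ((adj_iff k _ _).mpr ⟨h, Or.inl ⟨e, rfl, rfl⟩⟩)

lemma reach_edge (k : ℕ) (e : DiamondEdge k) :
    (diamondGraph k).Reachable (diamondSrc k e) (diamondTgt k e) := by
  rcases adj_or_eq k e with h | h
  · exact h.reachable
  · rw [h]

lemma dist_edge_le (k : ℕ) (e : DiamondEdge k) :
    (diamondGraph k).dist (diamondSrc k e) (diamondTgt k e) ≤ 1 := by
  rcases adj_or_eq k e with h | h
  · exact (SimpleGraph.dist_eq_one_iff_adj.mpr h).le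
  · rw [h, SimpleGraph.dist_self]; exact zero_le_one

/-- old vertices -/
def vl (k : ℕ) (u : DiamondVertex k) : DiamondVertex (k + 1) := Sum.inl u

/-- new vertices -/
def vr (k : ℕ) (e : DiamondEdge k) (i : ℕ) : DiamondVertex (k + 1) := Sum.inr (e, i)

/-- new edges -/
def ed (k : ℕ) (e : DiamondEdge k) (i : ℕ) (b : Bool) : DiamondEdge (k + 1) := (e, i, b)

lemma src_false (k : ℕ) (e : DiamondEdge k) (i : ℕ) :
    diamondSrc (k + 1) (ed k e i false) = vl k (diamondSrc k e) := rfl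
lemma tgt_false (k : ℕ) (e : DiamondEdge k) (i : ℕ) :
    diamondTgt (k + 1) (ed k e i false) = vr k e i := rfl
lemma src_true (k : ℕ) (e : DiamondEdge k) (i : ℕ) :
    diamondSrc (k + 1) (ed k e i true) = vr k e i := rfl
lemma tgt_true (k : ℕ) (e : DiamondEdge k) (i : ℕ) :
    diamondTgt (k + 1) (ed k e i true) = vl k (diamondTgt k e) := rfl

lemma edge_cases (k : ℕ) (e' : DiamondEdge (k + 1)) :
    ∃ e i, e' = ed k e i false ∨ e' = ed k e i true := by
  obtain ⟨e, i, b⟩ := e'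
  cases b
  · exact ⟨e, i, Or.inl rfl⟩
  · exact ⟨e, i, Or.inr rfl⟩

lemma connected (k : ℕ) : (diamondGraph k).Connected := by
  induction k with
  | zero =>
    have h : (diamondGraph 0).Reachable (false : Bool) (true : Bool) := reach_edge 0 ()
    have : Nonempty (DiamondVertex 0) := ⟨(false : Bool)⟩
    refine SimpleGraph.Connected.mk fun (u : Bool) (v : Bool) => ?_
    cases u <;> cases v
    · exact SimpleGraph.Reachable.refl _
    · exact h
    · exact h.symm
    · exact SimpleGraph.Reachable.refl _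
  | succ k ih =>
    obtain ⟨u0⟩ := ih.nonempty
    have : Nonempty (DiamondVertex (k + 1)) := ⟨vl k u0⟩
    have h1 : ∀ e i, (diamondGraph (k + 1)).Reachable (vl k (diamondSrc k e)) (vr k e i) :=
      fun e i => reach_edge (k + 1) (ed k e i false)
    have h2 : ∀ e i, (diamondGraph (k + 1)).Reachable (vr k e i) (vl k (diamondTgt k e)) :=
      fun e i => reach_edge (k + 1) (ed k e i true)
    have h3 : ∀ u v, (diamondGraph k).Reachable u v →
        (diamondGraph (k + 1)).Reachable (vl k u) (vl k v) := by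
      rintro u v ⟨p⟩
      induction p with
      | nil => exact SimpleGraph.Reachable.refl _
      | cons h _ ih2 =>
        refine SimpleGraph.Reachable.trans ?_ ih2
        obtain ⟨-, ⟨e, rfl, rfl⟩ | ⟨e, rfl, rfl⟩⟩ := (adj_iff k _ _).mp h
        · exact (h1 e 0).trans (h2 e 0)
        · exact ((h1 e 0).trans (h2 e 0)).symm
    have h4 : ∀ w : DiamondVertex (k + 1), (diamondGraph (k + 1)).Reachable (vl k u0) w := by
      rintro (u | ⟨e, i⟩)
      · exact h3 _ _ (ih.preconnected u0 u)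
      · exact (h3 _ _ (ih.preconnected u0 (diamondSrc k e))).trans (h1 e i)
    exact SimpleGraph.Connected.mk fun u v => (h4 u).symm.trans (h4 v)

lemma lip_walk {V : Type} {G : SimpleGraph V} (g : V → ℕ) (hg : ∀ u v, G.Adj u v → g v ≤ g u + 1)
    {u v : V} (p : G.Walk u v) : g v ≤ g u + p.length := by
  induction p with
  | nil => simp
  | cons h _ ih =>
    have := hg _ _ h
    simp only [SimpleGraph.Walk.length_cons]
    omega

lemma dist_vl (k : ℕ) (u v : DiamondVertex k) :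
    2 * (diamondGraph k).dist u v ≤ (diamondGraph (k + 1)).dist (vl k u) (vl k v) := by
  let g : DiamondVertex (k + 1) → ℕ := Sum.elim (fun w => 2 * (diamondGraph k).dist u w)
    (fun p => (diamondGraph k).dist u (diamondSrc k p.1) + (diamondGraph k).dist u (diamondTgt k p.1))
  have gl : ∀ w, g (vl k w) = 2 * (diamondGraph k).dist u w := fun w => rfl
  have gr : ∀ e i, g (vr k e i) = (diamondGraph k).dist u (diamondSrc k e) +
      (diamondGraph k).dist u (diamondTgt k e) := fun e i => rfl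
  have t1 : ∀ e, (diamondGraph k).dist u (diamondTgt k e) ≤
      (diamondGraph k).dist u (diamondSrc k e) + 1 := fun e =>
    (connected k).dist_triangle.trans (Nat.add_le_add_left (dist_edge_le k e) _)
  have t2 : ∀ e, (diamondGraph k).dist u (diamondSrc k e) ≤
      (diamondGraph k).dist u (diamondTgt k e) + 1 := fun e =>
    (connected k).dist_triangle.trans (Nat.add_le_add_left
      (by rw [SimpleGraph.dist_comm]; exact dist_edge_le k e) _)
  have hg : ∀ a b, (diamondGraph (k + 1)).Adj a b → g b ≤ g a + 1 := by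
    intro a b h
    obtain ⟨-, ⟨e', rfl, rfl⟩ | ⟨e', rfl, rfl⟩⟩ := (adj_iff (k + 1) _ _).mp h
    all_goals
      obtain ⟨e, i, rfl | rfl⟩ := edge_cases k e'
      all_goals
        simp only [src_false, tgt_false, src_true, tgt_true, gl, gr]
        have := t1 e
        have := t2 e
        omega
  obtain ⟨p, hp⟩ := (connected (k + 1)).exists_walk_length_eq_dist (vl k u) (vl k v)
  have := lip_walk g hg p
  rw [gl, gl, SimpleGraph.dist_self, hp] at this
  omega

lemma dist_vr (k : ℕ) (e : DiamondEdge k) {i j : ℕ} (hij : i ≠ j) :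
    2 ≤ (diamondGraph (k + 1)).dist (vr k e i) (vr k e j) := by
  refine (connected (k + 1)).one_lt_dist_of_ne_of_not_adj ?_ ?_
  · intro h
    have h2 : (e, i) = (e, j) := Sum.inr_injective h
    exact hij (Prod.ext_iff.mp h2).2
  · intro h
    obtain ⟨-, ⟨e', h1, h2⟩ | ⟨e', h1, h2⟩⟩ := (adj_iff (k + 1) _ _).mp h
    all_goals
      obtain ⟨e0, i0, rfl | rfl⟩ := edge_cases k e'
      · exact Sum.inl_ne_inr h1
      · exact Sum.inl_ne_inr h2

lemma dist_zero : 1 ≤ (diamondGraph 0).dist (diamondSrc 0 ()) (diamondTgt 0 ()) :=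
  (connected 0).pos_dist_of_ne (fun h => Bool.false_ne_true h)

end graph

variable {Y : Type} [NormedAddCommGroup Y] [NormedSpace ℝ Y]

/-- homogeneous squared midpoint estimate -/
def MidSq (Y : Type) [NormedAddCommGroup Y] [NormedSpace ℝ Y] : Prop :=
  ∀ (x : Y) (R η : ℝ), 0 < η → ∃ Φ : Finset (Y →L[ℝ] ℝ), ∀ y, (∀ φ ∈ Φ, φ y = 0) → ‖y‖ ≤ R →
    2 * ‖x‖ ^ 2 + ‖y‖ ^ 2 / 2 - η ≤ ‖x + y‖ ^ 2 + ‖x - y‖ ^ 2

lemma pigeon (z : ℕ → Y) (L : ℝ) (hz : ∀ i, ‖z i‖ ≤ L) (Ψ : Finset (Y →L[ℝ] ℝ)) {δ : ℝ}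
    (hδ : 0 < δ) : ∃ i j, i ≠ j ∧ ∀ ψ ∈ Ψ, |ψ (z i - z j)| ≤ δ := by
  let T : Y →L[ℝ] (Ψ → ℝ) := ContinuousLinearMap.pi fun φ : Ψ => (φ : Y →L[ℝ] ℝ)
  obtain ⟨a, -, φ, hφ, hlim⟩ := tendsto_subseq_of_bounded
    (Metric.isBounded_closedBall (x := (0 : Ψ → ℝ)) (r := ‖T‖ * L)) (x := fun i => T (z i))
    (fun i => by
      rw [mem_closedBall_zero_iff]
      exact (T.le_opNorm _).trans (mul_le_mul_of_nonneg_left (hz i) (norm_nonneg _)))
  obtain ⟨N, hN⟩ := Metric.cauchySeq_iff.mp hlim.cauchySeq δ hδ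
  refine ⟨φ N, φ (N + 1), (hφ (Nat.lt_succ_self N)).ne, fun ψ hψ => ?_⟩
  have h1 := hN N le_rfl (N + 1) (Nat.le_succ N)
  rw [dist_eq_norm] at h1
  have h2 := (norm_le_pi_norm _ (⟨ψ, hψ⟩ : Ψ)).trans h1.le
  rw [map_sub]
  exact h2

lemma fork (hY : MidSq Y) (u v : Y) (m : ℕ → Y) {L s : ℝ} (hs : 0 < s) (hL : 0 ≤ L)
    (h1 : ∀ i, ‖u - m i‖ ≤ L) (h2 : ∀ i, ‖m i - v‖ ≤ L) (h3 : ∀ i j, i ≠ j → 2 * s ≤ ‖m i - m j‖) :
    ‖u - v‖ ^ 2 ≤ 4 * (L ^ 2 - s ^ 2 / 4) := by
  set x := (1 / 2 : ℝ) • (u - v) with hx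
  have hxn : ‖u - v‖ = 2 * ‖x‖ := by
    rw [hx, norm_smul, Real.norm_eq_abs, abs_of_pos (by norm_num)]; ring
  have key : ∀ ε : ℝ, 0 < ε → ε ≤ 1 → ε ≤ s →
      2 * ‖x‖ ^ 2 + s ^ 2 / 2 ≤ 2 * L ^ 2 + ε * (4 * L + 3 + s) := by
    intro ε hε hε1 hεs
    obtain ⟨Φ, hΦ⟩ := hY x (2 * L + 1) ε hε
    obtain ⟨Ψ, δ, hδ, hΨ⟩ := (cof_kerSet Φ).approx hε
    obtain ⟨i, j, hij, hψ⟩ := pigeon (fun i => m i - v) L h2 Ψ hδ
    set y0 := (1 / 2 : ℝ) • (m i - m j) with hy0
    obtain ⟨y, hyF, hy⟩ := hΨ y0 (fun ψ hψ' => by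
      have := hψ ψ hψ'
      rw [sub_sub_sub_cancel_right] at this
      rw [hy0, map_smul, smul_eq_mul, abs_mul, abs_of_pos (by norm_num)]
      linarith [abs_nonneg (ψ (m i - m j))])
    have n1 : ‖x + y0‖ ≤ L := by
      have : x + y0 = (1 / 2 : ℝ) • ((u - m j) + (m i - v)) := by rw [hx, hy0]; module
      rw [this, norm_smul, Real.norm_eq_abs, abs_of_pos (by norm_num)]
      linarith [norm_add_le (u - m j) (m i - v), h1 j, h2 i]
    have n2 : ‖x - y0‖ ≤ L := by
      have : x - y0 = (1 / 2 : ℝ) • ((u - m i) + (m j - v)) := by rw [hx, hy0]; module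
      rw [this, norm_smul, Real.norm_eq_abs, abs_of_pos (by norm_num)]
      linarith [norm_add_le (u - m i) (m j - v), h1 i, h2 j]
    have n3 : s ≤ ‖y0‖ := by
      rw [hy0, norm_smul, Real.norm_eq_abs, abs_of_pos (by norm_num)]
      linarith [h3 i j hij]
    have n4 : ‖y0‖ ≤ L := by
      have : y0 = (1 / 2 : ℝ) • ((m i - v) - (m j - v)) := by rw [hy0]; module
      rw [this, norm_smul, Real.norm_eq_abs, abs_of_pos (by norm_num)]
      linarith [norm_sub_le (m i - v) (m j - v), h2 i, h2 j]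
    have n5 : ‖y‖ ≤ 2 * L + 1 := by
      have := norm_sub_norm_le y y0
      rw [norm_sub_rev] at this
      linarith
    have n6 : s - ε ≤ ‖y‖ := by
      have := norm_sub_norm_le y0 y
      linarith
    have n7 : ‖x + y‖ ≤ L + ε := by
      have : x + y = (x + y0) - (y0 - y) := by abel
      rw [this]
      linarith [norm_sub_le (x + y0) (y0 - y)]
    have n8 : ‖x - y‖ ≤ L + ε := by
      have : x - y = (x - y0) + (y0 - y) := by abel
      rw [this]
      linarith [norm_add_le (x - y0) (y0 - y)]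
    have h4 := hΦ y hyF n5
    have h5 := pow_le_pow_left₀ (norm_nonneg _) n7 2
    have h6 := pow_le_pow_left₀ (norm_nonneg _) n8 2
    have h7 := pow_le_pow_left₀ (by linarith) n6 2
    nlinarith
  have h : 2 * ‖x‖ ^ 2 + s ^ 2 / 2 ≤ 2 * L ^ 2 := by
    refine le_of_forall_pos_le_add fun η hη => ?_
    have hK : 0 < 4 * L + 3 + s := by linarith
    have := key (min (min 1 s) (η / (4 * L + 3 + s))) (by positivity)
      ((min_le_left _ _).trans (min_le_left _ _)) ((min_le_left _ _).trans (min_le_right _ _))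
    have h2 : min (min 1 s) (η / (4 * L + 3 + s)) * (4 * L + 3 + s) ≤ η := by
      rw [← le_div_iff₀ hK]; exact min_le_right _ _
    linarith
  rw [hxn]; nlinarith

theorem diamond_aux (hY : MidSq Y) : ∀ (k : ℕ) (f : DiamondVertex k → Y) (s L : ℝ), 0 < s →
    (∀ u v, s * ((diamondGraph k).dist u v : ℝ) ≤ ‖f u - f v‖) →
    (∀ e, ‖f (diamondSrc k e) - f (diamondTgt k e)‖ ≤ L) → s ^ 2 * (1 + (k : ℝ) / 4) ≤ L ^ 2 := by
  intro k
  induction k with
  | zero =>
    intro f s L hs h1 h2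
    have h3 := (h1 _ _).trans (h2 ())
    have h4 : (1 : ℝ) ≤ ((diamondGraph 0).dist (diamondSrc 0 ()) (diamondTgt 0 ()) : ℝ) := by
      exact_mod_cast dist_zero
    have h5 : s ≤ L := by nlinarith
    have := pow_le_pow_left₀ hs.le h5 2
    simpa using this
  | succ k ih =>
    intro f s L hs h1 h2
    have hfork : ∀ e, 0 ≤ L →
        ‖f (vl k (diamondSrc k e)) - f (vl k (diamondTgt k e))‖ ^ 2 ≤ 4 * (L ^ 2 - s ^ 2 / 4) := by
      intro e hL
      refine fork hY _ _ (fun i => f (vr k e i)) hs hL (fun i => h2 (ed k e i false))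
        (fun i => h2 (ed k e i true)) (fun i j hij => ?_)
      refine le_trans ?_ (h1 _ _)
      have : (2 : ℝ) ≤ ((diamondGraph (k + 1)).dist (vr k e i) (vr k e j) : ℝ) := by
        exact_mod_cast dist_vr k e hij
      nlinarith
    have h3 := ih (fun u => f (vl k u)) (2 * s) (Real.sqrt (4 * (L ^ 2 - s ^ 2 / 4)))
      (by linarith) (fun u v => by
        refine le_trans ?_ (h1 _ _)
        have : (2 * ((diamondGraph k).dist u v : ℝ)) ≤
            ((diamondGraph (k + 1)).dist (vl k u) (vl k v) : ℝ) := by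
          exact_mod_cast dist_vl k u v
        nlinarith)
      (fun e => Real.le_sqrt_of_sq_le (hfork e ((norm_nonneg _).trans (h2 (ed k e 0 false)))))
    have h4 : 0 < (2 * s) ^ 2 * (1 + (k : ℝ) / 4) := by positivity
    have h5 : 0 ≤ 4 * (L ^ 2 - s ^ 2 / 4) := by
      by_contra h
      rw [Real.sqrt_eq_zero_of_nonpos (not_le.mp h).le] at h3
      linarith
    rw [Real.sq_sqrt h5] at h3
    push_cast
    nlinarith

theorem diamond_distortion (hY : MidSq Y) (k : ℕ) (f : DiamondVertex k → Y) (D s : ℝ) (hs : 0 < s)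
    (h : ∀ u v : DiamondVertex k, s * (diamondDist k u v : ℝ) ≤ ‖f u - f v‖ ∧
      ‖f u - f v‖ ≤ D * s * (diamondDist k u v : ℝ)) : 1 + (k : ℝ) / 4 ≤ D ^ 2 := by
  have h1 := diamond_aux hY k f s (|D| * s) hs (fun u v => (h u v).1) (fun e => by
    refine (h _ _).2.trans ?_
    have h2 : (diamondDist k (diamondSrc k e) (diamondTgt k e) : ℝ) ≤ 1 := by
      exact_mod_cast dist_edge_le k e
    have h3 : (0 : ℝ) ≤ (diamondDist k (diamondSrc k e) (diamondTgt k e) : ℝ) := Nat.cast_nonneg _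
    calc _ ≤ |D| * s * (diamondDist k (diamondSrc k e) (diamondTgt k e) : ℝ) := by
          gcongr; exact le_abs_self D
      _ ≤ |D| * s * 1 := by gcongr
      _ = _ := mul_one _)
  rw [mul_pow, sq_abs, mul_comm (D ^ 2)] at h1
  exact le_of_mul_le_mul_left h1 (by positivity)

end Crest.Agent.R125
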