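import Mathlib
import Crest.Agent.R125.Diamond

set_option autoImplicit false
set_option linter.unusedSectionVars false

namespace Crest.Agent.R125

open Filter Topology

/-- reflexivity -/
def Refl (X : Type) [NormedAddCommGroup X] [NormedSpace ℝ X] : Prop :=
  Function.Surjective (NormedSpace.inclusionInDoubleDual ℝ X)

theorem refl_of_hilbert {H X : Type} [NormedAddCommGroup H] [InnerProductSpace ℝ H]
    [CompleteSpace H] [NormedAddCommGroup X] [NormedSpace ℝ X] (e : H ≃L[ℝ] X) : Refl X := by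
  intro ξ
  let A : H →L[ℝ] StrongDual ℝ X :=
    ((ContinuousLinearMap.compL ℝ X H ℝ).flip (e.symm : X →L[ℝ] H)).comp (innerSL ℝ)
  obtain ⟨h0, hh0⟩ := (InnerProductSpace.toDual ℝ H).surjective (ξ.comp A)
  refine ⟨e h0, ?_⟩
  ext φ
  obtain ⟨h, hh⟩ := (InnerProductSpace.toDual ℝ H).surjective (φ.comp (e : H →L[ℝ] X))
  have h1 : φ = A h := by
    ext x
    have := congrArg (fun ψ : StrongDual ℝ H => ψ (e.symm x)) hh
    simp only [InnerProductSpace.toDual_apply_apply, ContinuousLinearMap.coe_comp,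
      Function.comp_apply, ContinuousLinearEquiv.coe_coe,
      ContinuousLinearEquiv.apply_symm_apply] at this
    rw [← this]
    rfl
  have h2 := congrArg (fun ψ : StrongDual ℝ H => ψ h) hh0
  have h3 := congrArg (fun ψ : StrongDual ℝ H => ψ h0) hh
  simp only [InnerProductSpace.toDual_apply_apply, ContinuousLinearMap.coe_comp,
      Function.comp_apply, ContinuousLinearEquiv.coe_coe] at h2 h3
  rw [NormedSpace.dual_def, ← h3, real_inner_comm, h2, ← h1]

variable {G : ℕ → Type} [∀ k, NormedAddCommGroup (G k)] [∀ k, NormedSpace ℝ (G k)]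

lemma l2_hasSum (x : lp G 2) : HasSum (fun k => ‖x k‖ ^ 2) (‖x‖ ^ 2) := by
  have := lp.hasSum_norm (p := 2) (by norm_num) x
  simpa using this

lemma l2_sum_le (x : lp G 2) (A : Finset ℕ) : ∑ k ∈ A, ‖x k‖ ^ 2 ≤ ‖x‖ ^ 2 :=
  sum_le_hasSum A (fun _ _ => sq_nonneg _) (l2_hasSum x)

lemma l2_norm_sum_single (u : ∀ k, G k) (A : Finset ℕ) :
    ‖∑ k ∈ A, lp.single (E := G) 2 k (u k)‖ ^ 2 = ∑ k ∈ A, ‖u k‖ ^ 2 := by
  have := lp.norm_sum_single (E := G) (p := 2) (by norm_num) u A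
  simpa using this

lemma cs_bound (a : ℕ → ℝ) (z : lp G 2) (A : Finset ℕ) :
    ∑ k ∈ A, a k * ‖z k‖ ≤ Real.sqrt (∑ k ∈ A, a k ^ 2) * ‖z‖ := by
  have h1 := Finset.sum_mul_sq_le_sq_mul_sq A a fun k => ‖z k‖
  have h2 : 0 ≤ ∑ k ∈ A, a k ^ 2 := Finset.sum_nonneg fun _ _ => sq_nonneg _
  rw [← Real.sqrt_sq (norm_nonneg z), ← Real.sqrt_mul h2]
  exact Real.le_sqrt_of_sq_le (h1.trans (mul_le_mul_of_nonneg_left (l2_sum_le z A) h2))

lemma le_sq_of_le_mul_sqrt {S C : ℝ} (hS : 0 ≤ S) (h : S ≤ C * Real.sqrt S) : S ≤ C ^ 2 := by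
  have h1 := Real.mul_self_sqrt hS
  have h2 := Real.sqrt_nonneg S
  nlinarith [sq_nonneg (C - Real.sqrt S)]

theorem refl_l2 (hG : ∀ k, Refl (G k)) : Refl (lp G 2) := by
  intro ξ
  let pr : ∀ k, lp G 2 →L[ℝ] G k := fun k => lp.evalCLM ℝ G 2 k
  let sg : ∀ k, G k →L[ℝ] lp G 2 := fun k => lp.singleContinuousLinearMap ℝ G 2 k
  have pr_apply : ∀ k (z : lp G 2), pr k z = z k := fun k z => rfl
  choose x hx using fun k =>
    hG k (ξ.comp ((ContinuousLinearMap.compL ℝ (lp G 2) (G k) ℝ).flip (pr k)))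
  have hx' : ∀ k (ψ : StrongDual ℝ (G k)), ψ (x k) = ξ (ψ.comp (pr k)) := by
    intro k ψ
    have := congrArg (fun η : StrongDual ℝ (StrongDual ℝ (G k)) => η ψ) (hx k)
    exact this
  have hxsum : ∀ A : Finset ℕ, ∑ k ∈ A, ‖x k‖ ^ 2 ≤ ‖ξ‖ ^ 2 := by
    intro A
    choose ψ hψ1 hψ2 using fun k => exists_dual_vector'' ℝ (x k)
    have h1 : ‖∑ k ∈ A, ‖x k‖ • (ψ k).comp (pr k)‖ ≤ Real.sqrt (∑ k ∈ A, ‖x k‖ ^ 2) := by
      refine ContinuousLinearMap.opNorm_le_bound _ (Real.sqrt_nonneg _) fun z => ?_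
      refine le_trans ?_ (cs_bound (fun k => ‖x k‖) z A)
      rw [sum_apply]
      refine (norm_sum_le _ _).trans (Finset.sum_le_sum fun k _ => ?_)
      rw [smul_apply, norm_smul, norm_norm]
      refine mul_le_mul_of_nonneg_left ?_ (norm_nonneg _)
      have := (ψ k).le_opNorm (z k)
      have h2 := mul_le_mul_of_nonneg_right (hψ1 k) (norm_nonneg (z k))
      rw [one_mul] at h2
      exact this.trans h2
    have h2 : ξ (∑ k ∈ A, ‖x k‖ • (ψ k).comp (pr k)) = ∑ k ∈ A, ‖x k‖ ^ 2 := by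
      rw [map_sum]
      refine Finset.sum_congr rfl fun k _ => ?_
      rw [map_smul, ← hx', hψ2, smul_eq_mul, sq]
      rfl
    refine le_sq_of_le_mul_sqrt (Finset.sum_nonneg fun _ _ => sq_nonneg _) ?_
    conv_lhs => rw [← h2]
    exact (le_abs_self _).trans ((ξ.le_opNorm _).trans
      (mul_le_mul_of_nonneg_left h1 (norm_nonneg _)))
  have hmem : Memℓp x 2 := by
    apply memℓp_gen' (C := ‖ξ‖ ^ 2)
    intro A
    simpa using hxsum A
  refine ⟨⟨x, hmem⟩, ?_⟩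
  ext φ
  rw [NormedSpace.dual_def]
  let φk : ∀ k, StrongDual ℝ (G k) := fun k => φ.comp (sg k)
  have hφsum : ∀ A : Finset ℕ, ∑ k ∈ A, ‖φk k‖ ^ 2 ≤ ‖φ‖ ^ 2 := by
    intro A
    have hu : ∀ k, ∃ u : G k, ‖u‖ ≤ 1 ∧ φk k u = ‖φk k‖ := by
      intro k
      obtain ⟨η, hη1, hη2⟩ := exists_dual_vector'' ℝ (φk k)
      obtain ⟨u, rfl⟩ := hG k η
      refine ⟨u, ?_, hη2⟩
      rw [← (NormedSpace.inclusionInDoubleDualLi (E := G k) ℝ).norm_map u]
      exact hη1
    choose u hu1 hu2 using hu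
    have h1 : ‖∑ k ∈ A, lp.single (E := G) 2 k (‖φk k‖ • u k)‖ ≤
        Real.sqrt (∑ k ∈ A, ‖φk k‖ ^ 2) := by
      apply Real.le_sqrt_of_sq_le
      rw [l2_norm_sum_single]
      refine Finset.sum_le_sum fun k _ => pow_le_pow_left₀ (norm_nonneg _) ?_ 2
      rw [norm_smul, norm_norm]
      exact mul_le_of_le_one_right (norm_nonneg _) (hu1 k)
    have h2 : φ (∑ k ∈ A, lp.single (E := G) 2 k (‖φk k‖ • u k)) = ∑ k ∈ A, ‖φk k‖ ^ 2 := by
      rw [map_sum]
      refine Finset.sum_congr rfl fun k _ => ?_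
      have : φ (lp.single (E := G) 2 k (‖φk k‖ • u k)) = φk k (‖φk k‖ • u k) := rfl
      rw [this, map_smul, hu2, smul_eq_mul, sq]
    refine le_sq_of_le_mul_sqrt (Finset.sum_nonneg fun _ _ => sq_nonneg _) ?_
    conv_lhs => rw [← h2]
    exact (le_abs_self _).trans ((φ.le_opNorm _).trans
      (mul_le_mul_of_nonneg_left h1 (norm_nonneg _)))
  have hsm : Summable fun k => ‖φk k‖ ^ 2 :=
    summable_of_sum_le (fun _ => sq_nonneg _) hφsum
  have hz : ∀ z : lp G 2, Tendsto (fun M => ∑ k ∈ Finset.range M, φk k (z k)) atTop (𝓝 (φ z)) :=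
    fun z => (φ.hasSum (lp.hasSum_single (by norm_num) z)).tendsto_sum_nat
  set τ := ∑' k, ‖φk k‖ ^ 2 with hτ
  have htail : ∀ N, ‖φ - ∑ k ∈ Finset.range N, (φk k).comp (pr k)‖ ≤
      Real.sqrt (τ - ∑ k ∈ Finset.range N, ‖φk k‖ ^ 2) := by
    intro N
    refine ContinuousLinearMap.opNorm_le_bound _ (Real.sqrt_nonneg _) fun z => ?_
    have h1 : Tendsto (fun M => ‖∑ k ∈ Finset.range M, φk k (z k) -
        ∑ k ∈ Finset.range N, φk k (z k)‖) atTop
        (𝓝 ‖(φ - ∑ k ∈ Finset.range N, (φk k).comp (pr k)) z‖) := by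
      rw [sub_apply, sum_apply]
      exact ((hz z).sub_const _).norm
    refine le_of_tendsto h1 (eventually_atTop.mpr ⟨N, fun M hM => ?_⟩)
    rw [← Finset.sum_Ico_eq_sub _ hM]
    refine (norm_sum_le _ _).trans ((Finset.sum_le_sum fun k _ => (φk k).le_opNorm _).trans
      ((cs_bound (fun k => ‖φk k‖) z _).trans ?_))
    refine mul_le_mul_of_nonneg_right (Real.sqrt_le_sqrt ?_) (norm_nonneg _)
    rw [Finset.sum_Ico_eq_sub _ hM]
    have := hsm.sum_le_tsum (Finset.range M) (fun _ _ => sq_nonneg _)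
    linarith
  have hconv : Tendsto (fun N => ∑ k ∈ Finset.range N, (φk k).comp (pr k)) atTop (𝓝 φ) := by
    rw [tendsto_iff_norm_sub_tendsto_zero]
    have h1 : Tendsto (fun N => Real.sqrt (τ - ∑ k ∈ Finset.range N, ‖φk k‖ ^ 2)) atTop (𝓝 0) := by
      have := (hsm.hasSum.tendsto_sum_nat.const_sub τ).sqrt
      rwa [← hτ, sub_self, Real.sqrt_zero] at this
    refine squeeze_zero (fun _ => norm_nonneg _) (fun N => ?_) h1
    rw [norm_sub_rev]
    exact htail N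
  have h1 := (ξ.continuous.tendsto φ).comp hconv
  have h2 := hz ⟨x, hmem⟩
  refine tendsto_nhds_unique h2 ?_
  convert h1 using 2 with N
  rw [Function.comp_apply, map_sum]
  exact Finset.sum_congr rfl fun k _ => hx' k _

theorem separable_l2 [∀ k, TopologicalSpace.SeparableSpace (G k)] :
    TopologicalSpace.SeparableSpace (lp G 2) := by
  rw [← TopologicalSpace.isSeparable_univ_iff]
  have h1 : TopologicalSpace.IsSeparable
      (⋃ k, Set.range (lp.singleContinuousLinearMap ℝ G 2 k)) :=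
    TopologicalSpace.isSeparable_iUnion.mpr fun k =>
      TopologicalSpace.isSeparable_range (lp.singleContinuousLinearMap ℝ G 2 k).continuous
  refine (h1.span (R := ℝ)).closure.mono fun z _ => ?_
  refine mem_closure_of_tendsto (lp.hasSum_single (by norm_num) z)
    (Eventually.of_forall fun A => ?_)
  exact Submodule.sum_mem _ fun k _ => Submodule.subset_span (Set.mem_iUnion.mpr ⟨k, z k, rfl⟩)

theorem midSq_l2 (hG : ∀ k (x : G k) (η : ℝ), 0 < η → ∃ Φ : Finset (G k →L[ℝ] ℝ),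
    ∀ y, (∀ φ ∈ Φ, φ y = 0) →
      Real.sqrt (‖x‖ ^ 2 + ‖y‖ ^ 2 / 4) - η ≤ (‖x + y‖ + ‖x - y‖) / 2) : MidSq (lp G 2) := by
  classical
  intro x R η hη
  obtain ⟨N, hN⟩ : ∃ N, ‖x‖ ^ 2 - η / 4 ≤ ∑ k ∈ Finset.range N, ‖x k‖ ^ 2 := by
    have := (l2_hasSum x).tendsto_sum_nat.eventually
      (lt_mem_nhds (show ‖x‖ ^ 2 - η / 4 < ‖x‖ ^ 2 by linarith))
    obtain ⟨N, hN⟩ := this.exists
    exact ⟨N, hN.le⟩
  set K := 4 * (‖x‖ + |R|) * N + 1 with hK
  have hK0 : 0 < K := by positivity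
  choose Φ hΦ using fun k => hG k (x k) (η / 2 / K) (by positivity)
  refine ⟨(Finset.range N).biUnion fun k => (Φ k).image fun φ => φ.comp (lp.evalCLM ℝ G 2 k),
    fun y hy hyR => ?_⟩
  have hterm : ∀ k, (if k < N then 2 * ‖x k‖ ^ 2 - 4 * (‖x‖ + |R|) * (η / 2 / K) else 0) +
      ‖y k‖ ^ 2 / 2 ≤ ‖(x + y) k‖ ^ 2 + ‖(x - y) k‖ ^ 2 := by
    intro k
    rw [lp.coeFn_add, lp.coeFn_sub, Pi.add_apply, Pi.sub_apply]
    split_ifs with hk
    · have h1 := hΦ k (y k) fun φ hφ => hy (φ.comp (lp.evalCLM ℝ G 2 k))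
        (Finset.mem_biUnion.mpr ⟨k, Finset.mem_range.mpr hk, Finset.mem_image_of_mem _ hφ⟩)
      set ρ := Real.sqrt (‖x k‖ ^ 2 + ‖y k‖ ^ 2 / 4) with hρ
      have hρ2 : ρ ^ 2 = ‖x k‖ ^ 2 + ‖y k‖ ^ 2 / 4 := Real.sq_sqrt (by positivity)
      have hρ0 : 0 ≤ ρ := Real.sqrt_nonneg _
      have hx1 : ‖x k‖ ≤ ‖x‖ := lp.norm_apply_le_norm (by norm_num) x k
      have hy1 : ‖y k‖ ≤ |R| := (lp.norm_apply_le_norm (by norm_num) y k).trans
        (hyR.trans (le_abs_self R))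
      have hρ1 : ρ ≤ ‖x‖ + |R| := by
        apply Real.sqrt_le_iff.mpr
        refine ⟨by positivity, ?_⟩
        have := pow_le_pow_left₀ (norm_nonneg _) hx1 2
        have := pow_le_pow_left₀ (norm_nonneg _) hy1 2
        have := mul_nonneg (norm_nonneg x) (abs_nonneg R)
        nlinarith [sq_nonneg (‖y k‖)]
      set e := η / 2 / K with he
      have he0 : 0 < e := by positivity
      set p := ‖x k + y k‖
      set q := ‖x k - y k‖
      have hp : 0 ≤ p := norm_nonneg _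
      have hq : 0 ≤ q := norm_nonneg _
      have h2 : ρ ^ 2 - 2 * e * ρ ≤ ((p + q) / 2) ^ 2 := by
        rcases le_total e ρ with h | h
        · have := pow_le_pow_left₀ (by linarith) h1 2
          nlinarith
        · have : 0 ≤ ((p + q) / 2) ^ 2 := sq_nonneg _
          nlinarith
      have h3 := mul_le_mul_of_nonneg_left hρ1 he0.le
      nlinarith [sq_nonneg (p - q)]
    · have h1 := norm_sub_le (x k + y k) (x k - y k)
      rw [show x k + y k - (x k - y k) = (2 : ℝ) • y k by module, norm_smul, Real.norm_eq_abs,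
        abs_two] at h1
      have := pow_le_pow_left₀ (by positivity) h1 2
      nlinarith [sq_nonneg (‖x k + y k‖ - ‖x k - y k‖), sq_nonneg (‖y k‖)]
  have hs1 : HasSum (fun k => if k < N then 2 * ‖x k‖ ^ 2 - 4 * (‖x‖ + |R|) * (η / 2 / K) else 0)
      (∑ k ∈ Finset.range N, (2 * ‖x k‖ ^ 2 - 4 * (‖x‖ + |R|) * (η / 2 / K))) := by
    have := hasSum_sum_of_ne_finset_zero (L := SummationFilter.unconditional ℕ)
      (f := fun k => if k < N then 2 * ‖x k‖ ^ 2 - 4 * (‖x‖ + |R|) * (η / 2 / K) else 0)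
      (s := Finset.range N) (fun k hk => if_neg (by simpa using hk))
    rwa [Finset.sum_congr rfl fun k hk => if_pos (Finset.mem_range.mp hk)] at this
  have h := hasSum_le hterm (hs1.add ((l2_hasSum y).div_const 2))
    ((l2_hasSum (x + y)).add (l2_hasSum (x - y)))
  rw [Finset.sum_sub_distrib, ← Finset.mul_sum, Finset.sum_const, Finset.card_range,
    nsmul_eq_mul] at h
  have h2 : (N : ℝ) * (4 * (‖x‖ + |R|) * (η / 2 / K)) ≤ η / 2 := by
    have : (N : ℝ) * (4 * (‖x‖ + |R|) * (η / 2 / K)) = (η / 2) * ((K - 1) / K) := by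
      rw [hK]; field_simp; ring
    rw [this]
    refine mul_le_of_le_one_right (by positivity) ?_
    rw [div_le_one hK0]; linarith
  linarith

end Crest.Agent.R125
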