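import Mathlib
import Crest.Prelude.Def_TreePotentials
import Crest.Agent.R125.Basic

set_option autoImplicit false

namespace Crest.Agent.R125

open Finset Crest.AnalysisR.TreePotential

/-- increments of a function on the tree -/
def incr (π : List ℕ → ℝ) : List ℕ → ℝ
  | [] => π []
  | a :: v => π (a :: v) - π v

lemma pot_incr (π : List ℕ → ℝ) : ∀ s, pathPotential (incr π) s = π s
  | [] => rfl
  | a :: v => by simp only [pathPotential, incr, pot_incr π v]; ring

/-- deepest ancestor inside `T` -/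
def exitV (T : Finset (List ℕ)) : List ℕ → List ℕ
  | [] => []
  | a :: v => if (a :: v) ∈ T then a :: v else exitV T v

lemma exitV_of_mem {T : Finset (List ℕ)} : ∀ {s : List ℕ}, s ∈ T → exitV T s = s
  | [], _ => rfl
  | _ :: _, h => by simp only [exitV, if_pos h]

lemma combine (f g : List ℕ → ℝ) (hf : ∀ s, |pathPotential f s| ≤ 1)
    (hg : ∀ s, |pathPotential g s| ≤ 1) (T : Finset (List ℕ)) (hT0 : [] ∈ T)
    (hT : ∀ a v, a :: v ∈ T → v ∈ T) {a b : ℝ} (ha0 : 0 ≤ a) (ha1 : a ≤ 1) (hb0 : 0 ≤ b)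
    (hb1 : b ≤ 1 / 2) :
    ∃ fp fm : List ℕ → ℝ, (∀ s, |pathPotential fp s| ≤ 1) ∧ (∀ s, |pathPotential fm s| ≤ 1) ∧
      (∀ s ∈ T, fp s = a * f s ∧ fm s = a * f s) ∧
      (∀ s ∉ T, |fp s| ≤ b * |g s| ∧ |fm s| ≤ b * |g s| ∧ fp s - fm s = b * g s) := by
  let p : List ℕ → ℝ := fun s => pathPotential g s - pathPotential g (exitV T s)
  let e : List ℕ → ℝ := fun s => pathPotential f (exitV T s)
  let πp : List ℕ → ℝ := fun s => a * e s + b * (if 0 ≤ e s then min (p s) 0 else max (p s) 0)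
  let πm : List ℕ → ℝ := fun s => a * e s - b * (if 0 ≤ e s then max (p s) 0 else min (p s) 0)
  have hp : ∀ s, -2 ≤ p s ∧ p s ≤ 2 := by
    intro s
    have h1 := abs_le.mp (hg s)
    have h2 := abs_le.mp (hg (exitV T s))
    constructor <;> simp only [p] <;> linarith [h1.1, h1.2, h2.1, h2.2]
  have he : ∀ s, -1 ≤ e s ∧ e s ≤ 1 := fun s => abs_le.mp (hf _)
  have hmin : ∀ s, -2 ≤ min (p s) 0 ∧ min (p s) 0 ≤ 0 := fun s =>
    ⟨le_min (hp s).1 (by norm_num), min_le_right _ _⟩
  have hmax : ∀ s, 0 ≤ max (p s) 0 ∧ max (p s) 0 ≤ 2 := fun s =>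
    ⟨le_max_right _ _, max_le (hp s).2 (by norm_num)⟩
  have hTval : ∀ s ∈ T, πp s = a * pathPotential f s ∧ πm s = a * pathPotential f s := by
    intro s hs
    have h1 : p s = 0 := by simp only [p, exitV_of_mem hs, sub_self]
    have h2 : e s = pathPotential f s := by simp only [e, exitV_of_mem hs]
    simp only [πp, πm, h1, h2, min_self, max_self, ite_self, mul_zero, add_zero, sub_zero, and_self]
  refine ⟨incr πp, incr πm, fun s => ?_, fun s => ?_, fun s hs => ?_, fun s hs => ?_⟩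
  · rw [pot_incr, abs_le]
    have h1 := he s
    have h2 := hmin s
    have h3 := hmax s
    simp only [πp]
    split_ifs with h
    · constructor <;> nlinarith [h1.1, h1.2, h2.1, h2.2]
    · have h' := not_le.mp h
      constructor <;> nlinarith [h1.1, h1.2, h3.1, h3.2]
  · rw [pot_incr, abs_le]
    have h1 := he s
    have h2 := hmin s
    have h3 := hmax s
    simp only [πm]
    split_ifs with h
    · constructor <;> nlinarith [h1.1, h1.2, h3.1, h3.2]
    · have h' := not_le.mp h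
      constructor <;> nlinarith [h1.1, h1.2, h2.1, h2.2]
  · cases s with
    | nil => exact hTval [] hs
    | cons c v =>
      have h1 := hTval _ hs
      have h2 := hTval _ (hT c v hs)
      simp only [incr, h1.1, h1.2, h2.1, h2.2, pathPotential]
      constructor <;> ring
  · cases s with
    | nil => exact absurd hT0 hs
    | cons c v =>
      have h1 : exitV T (c :: v) = exitV T v := by simp only [exitV, if_neg hs]
      have h2 : e (c :: v) = e v := by simp only [e, h1]
      have h3 : p (c :: v) - p v = g (c :: v) := by simp only [p, h1, pathPotential]; ring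
      have h4 : |min (p (c :: v)) 0 - min (p v) 0| ≤ |g (c :: v)| := by
        rw [← h3]
        simpa using abs_min_sub_min_le_max (p (c :: v)) 0 (p v) 0
      have h5 : |max (p (c :: v)) 0 - max (p v) 0| ≤ |g (c :: v)| := by
        rw [← h3]
        exact abs_max_sub_max_le_abs _ _ _
      have h6 : ∀ x : ℝ, min x 0 + max x 0 = x := fun x => by rw [min_add_max, add_zero]
      have h7 := h6 (p (c :: v))
      have h8 := h6 (p v)
      simp only [incr, πp, πm, h2]
      split_ifs with h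
      · refine ⟨?_, ?_, ?_⟩
        · rw [add_sub_add_left_eq_sub, ← mul_sub, abs_mul, abs_of_nonneg hb0]
          exact mul_le_mul_of_nonneg_left h4 hb0
        · rw [sub_sub_sub_cancel_left, ← mul_sub, abs_mul, abs_of_nonneg hb0, abs_sub_comm]
          exact mul_le_mul_of_nonneg_left h5 hb0
        · rw [← h3]; linear_combination b * h7 - b * h8
      · refine ⟨?_, ?_, ?_⟩
        · rw [add_sub_add_left_eq_sub, ← mul_sub, abs_mul, abs_of_nonneg hb0]
          exact mul_le_mul_of_nonneg_left h5 hb0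
        · rw [sub_sub_sub_cancel_left, ← mul_sub, abs_mul, abs_of_nonneg hb0, abs_sub_comm]
          exact mul_le_mul_of_nonneg_left h4 hb0
        · rw [← h3]; linear_combination b * h7 - b * h8

lemma extra_of_dom {m : PotentialModel} {f g h : List ℕ → ℝ} (hf : ExtraCondition m f)
    (hg : ExtraCondition m g) {α β : ℝ} (hα : 0 ≤ α) (hβ : 0 ≤ β) (hαβ : α + β ≤ 1)
    (hd : ∀ s, h s ^ 2 ≤ α * f s ^ 2 + β * g s ^ 2) : ExtraCondition m h := by
  have key : ∀ {ι : Type} (A : Finset ι) (u : ι → List ℕ), ∑ n ∈ A, f (u n) ^ 2 ≤ 1 →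
      ∑ n ∈ A, g (u n) ^ 2 ≤ 1 → ∑ n ∈ A, h (u n) ^ 2 ≤ 1 := by
    intro ι A u h1 h2
    have h3 := Finset.sum_le_sum fun n (_ : n ∈ A) => hd (u n)
    rw [Finset.sum_add_distrib, ← Finset.mul_sum, ← Finset.mul_sum] at h3
    nlinarith
  have hz : ∀ s, f s = 0 → g s = 0 → h s = 0 := by
    intro s h1 h2
    have := hd s
    rw [h1, h2] at this
    exact pow_eq_zero_iff (two_ne_zero) |>.mp (le_antisymm (by simpa using this) (sq_nonneg _))
  cases m with
  | rootlessSibling =>
    exact ⟨hz _ hf.1 hg.1, fun r A => key A (fun n => n :: r) (hf.2 r A) (hg.2 r A)⟩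
  | rootedSibling => exact fun r A => key A (fun n => n :: r) (hf r A) (hg r A)
  | antichain =>
    refine ⟨(hf.1.union hg.1).subset fun s hs => ?_, fun A hA => key A id (hf.2 A hA) (hg.2 A hA)⟩
    by_contra hcon
    simp only [Set.mem_union, Function.mem_support, not_or, not_not] at hcon
    exact hs (hz s hcon.1 hcon.2)
  | global => exact fun A => key A id (hf A) (hg A)

lemma pot_neg (f : List ℕ → ℝ) : ∀ s, pathPotential (-f) s = -pathPotential f s
  | [] => rfl
  | a :: v => by simp only [pathPotential, pot_neg f v, Pi.neg_apply]; ring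

lemma isTest_neg {m : PotentialModel} {f : List ℕ → ℝ} (hf : IsTest m f) : IsTest m (-f) :=
  ⟨fun s => by rw [pot_neg, abs_neg]; exact hf.1 s,
    extra_of_dom hf.2 hf.2 zero_le_one le_rfl (by norm_num) fun s => by simp⟩

/-- point mass -/
def dl (s : List ℕ) : List ℕ → ℝ := fun u => if u = s then 1 else 0

lemma pot_dl (s : List ℕ) : ∀ u, pathPotential (dl s) u = if s <:+ u then 1 else 0
  | [] => by
    simp only [pathPotential, dl, List.suffix_nil]
    by_cases h : s = []
    · simp [h]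
    · simp [h, Ne.symm h]
  | a :: v => by
    simp only [pathPotential, pot_dl s v, dl, List.suffix_cons_iff]
    by_cases h : s = a :: v
    · have : ¬ s <:+ v := by
        intro h'
        have := h'.length_le
        rw [h] at this
        simp at this
      simp [h]
      exact h ▸ this
    · simp [h, Ne.symm h]

lemma sum_dl_sq {ι : Type} (A : Finset ι) (u : ι → List ℕ) (hu : Function.Injective u)
    (s : List ℕ) : ∑ n ∈ A, dl s (u n) ^ 2 ≤ 1 := by
  classical
  rw [← Finset.sum_image (f := fun v => dl s v ^ 2) (fun x _ y _ h => hu h)]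
  simp only [dl, ite_pow, one_pow, ne_eq, OfNat.ofNat_ne_zero, not_false_eq_true, zero_pow,
    Finset.sum_ite_eq']
  split_ifs <;> norm_num

lemma isTest_dl {m : PotentialModel} {s : List ℕ} (h : s ≠ [] ∨ m ≠ .rootlessSibling) :
    IsTest m (dl s) := by
  refine ⟨fun u => by rw [pot_dl]; split_ifs <;> simp, ?_⟩
  have hc : ∀ r : List ℕ, Function.Injective fun n : ℕ => n :: r := fun r a b h => by simpa using h
  cases m with
  | rootlessSibling =>
    have hs : s ≠ [] := by simpa using h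
    exact ⟨by simp [dl, Ne.symm hs], fun r A => sum_dl_sq A _ (hc r) s⟩
  | rootedSibling => exact fun r A => sum_dl_sq A _ (hc r) s
  | antichain =>
    refine ⟨(Set.finite_singleton s).subset fun u hu => ?_,
      fun A _ => sum_dl_sq A id Function.injective_id s⟩
    by_contra hcon
    exact hu (by simp only [dl]; exact if_neg hcon)
  | global => exact fun A => sum_dl_sq A id Function.injective_id s

lemma sibling_le {m : PotentialModel} {f : List ℕ → ℝ} (hf : IsTest m f) (r : List ℕ)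
    (A : Finset ℕ) : ∑ n ∈ A, f (n :: r) ^ 2 ≤ 1 := by
  have hc : ∀ x ∈ A, ∀ y ∈ A, x :: r = y :: r → x = y := fun x _ y _ h => by simpa using h
  cases m with
  | rootlessSibling => exact hf.2.2 r A
  | rootedSibling => exact hf.2 r A
  | antichain =>
    rw [← Finset.sum_image (f := fun v => f v ^ 2) hc]
    refine hf.2.2 _ fun u hu v hv hne hsuf => hne ?_
    obtain ⟨a, -, rfl⟩ := Finset.mem_image.mp hu
    obtain ⟨b, -, rfl⟩ := Finset.mem_image.mp hv
    exact hsuf.eq_of_length (by simp)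
  | global =>
    rw [← Finset.sum_image (f := fun v => f v ^ 2) hc]
    exact hf.2 _

/-- the ambient space -/
abbrev LL (m : PotentialModel) : Type := lp (fun _ : PotentialTest m => ℝ) ⊤

lemma coord_apply (m : PotentialModel) (s : List ℕ) (f : PotentialTest m) :
    coordVector m s f = f.1 s := rfl

lemma comb_apply (m : PotentialModel) (A : Finset (List ℕ)) (c : List ℕ → ℝ)
    (f : PotentialTest m) : (∑ s ∈ A, c s • coordVector m s : LL m) f = ∑ s ∈ A, c s * f.1 s := by
  rw [lp.coeFn_sum, Finset.sum_apply]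
  rfl

lemma apply_le_norm {m : PotentialModel} (x : LL m) (f : PotentialTest m) : |x f| ≤ ‖x‖ :=
  lp.norm_apply_le_norm ENNReal.top_ne_zero x f

lemma norm_coord_le (m : PotentialModel) (s : List ℕ) : ‖coordVector m s‖ ≤ 2 := by
  refine lp.norm_le_of_forall_le (by norm_num) fun f => ?_
  rw [coord_apply, Real.norm_eq_abs]
  cases s with
  | nil =>
    have h0 := f.2.1 []
    simp only [pathPotential] at h0
    linarith
  | cons a v =>
    have h1 := f.2.1 (a :: v)
    have h2 := f.2.1 v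
    simp only [pathPotential] at h1
    rw [abs_le] at h1 h2 ⊢
    constructor <;> linarith [h1.1, h1.2, h2.1, h2.2]

lemma exists_norming {m : PotentialModel} (A : Finset (List ℕ)) (c : List ℕ → ℝ) {ε : ℝ}
    (hε : 0 < ε) : ∃ f : PotentialTest m,
      ‖(∑ s ∈ A, c s • coordVector m s : LL m)‖ - ε ≤ ∑ s ∈ A, c s * f.1 s := by
  by_contra hcon
  push Not at hcon
  have : Nonempty (PotentialTest m) := ⟨⟨dl [0], isTest_dl (Or.inl (by simp))⟩⟩
  have := lp.norm_le_of_forall_le' (f := (∑ s ∈ A, c s • coordVector m s : LL m))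
    (‖(∑ s ∈ A, c s • coordVector m s : LL m)‖ - ε) fun f => by
      rw [comb_apply, Real.norm_eq_abs, abs_le]
      have h1 := hcon f
      have h2 := hcon ⟨-f.1, isTest_neg f.2⟩
      simp only [Pi.neg_apply, mul_neg, Finset.sum_neg_distrib] at h2
      constructor <;> linarith
  linarith

lemma exists_comb {m : PotentialModel} {x : LL m} (hx : x ∈ modelSpace m) {ε : ℝ} (hε : 0 < ε) :
    ∃ (A : Finset (List ℕ)) (c : List ℕ → ℝ), ‖x - ∑ s ∈ A, c s • coordVector m s‖ ≤ ε := by
  have hx' : x ∈ closure (Submodule.span ℝ (Set.range (coordVector m)) : Set (LL m)) := hx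
  obtain ⟨z, hz, hd⟩ := Metric.mem_closure_iff.mp hx' ε hε
  obtain ⟨c, rfl⟩ := Finsupp.mem_span_range_iff_exists_finsupp.mp hz
  exact ⟨c.support, c, by rw [dist_eq_norm] at hd; exact hd.le⟩

open Classical in
/-- evaluation at a candidate test -/
noncomputable def ev (m : PotentialModel) (f : List ℕ → ℝ) : LL m →L[ℝ] ℝ :=
  if h : IsTest m f then lp.evalCLM ℝ (fun _ : PotentialTest m => ℝ) ⊤ ⟨f, h⟩ else 0

lemma ev_apply {m : PotentialModel} {f : List ℕ → ℝ} (h : IsTest m f) (x : LL m) :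
    ev m f x = x ⟨f, h⟩ := by
  simp only [ev, dif_pos h]; rfl

lemma exists_comb_off {m : PotentialModel} (T : Finset (List ℕ)) {y : LL m} (hy : y ∈ modelSpace m)
    (hyT : ∀ s ∈ T, ev m (dl s) y = 0) {ε : ℝ} (hε : 0 < ε) :
    ∃ (B : Finset (List ℕ)) (d : List ℕ → ℝ), (∀ s ∈ B, s ∉ T) ∧
      ‖y - ∑ s ∈ B, d s • coordVector m s‖ ≤ ε := by
  classical
  set ε' := ε / (1 + 2 * T.card) with hε'
  have hε'0 : 0 < ε' := by positivity
  obtain ⟨B, d, hB⟩ := exists_comb hy hε'0
  refine ⟨B.filter (· ∉ T), d, fun s hs => (Finset.mem_filter.mp hs).2, ?_⟩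
  have h1 : ∀ s ∈ B.filter (· ∈ T), ‖d s • coordVector m s‖ ≤ 2 * ε' := by
    intro s hs
    obtain ⟨hsB, hsT⟩ := Finset.mem_filter.mp hs
    by_cases h : s ≠ [] ∨ m ≠ .rootlessSibling
    · have ht := isTest_dl h
      have h2 := apply_le_norm (y - ∑ s ∈ B, d s • coordVector m s) ⟨dl s, ht⟩
      rw [lp.coeFn_sub, Pi.sub_apply, ← ev_apply ht, hyT s hsT, comb_apply] at h2
      have h3 : ∑ u ∈ B, d u * dl s u = d s := by
        simp [dl, hsB]
      rw [h3, zero_sub, abs_neg] at h2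
      rw [norm_smul, Real.norm_eq_abs]
      have := norm_coord_le m s
      have h4 := abs_nonneg (d s)
      have h5 := norm_nonneg (coordVector m s)
      nlinarith
    · push Not at h
      obtain ⟨rfl, rfl⟩ := h
      have : coordVector .rootlessSibling [] = 0 := by
        ext f
        exact f.2.2.1
      rw [this, smul_zero, norm_zero]
      positivity
  have h2 : ‖∑ s ∈ B.filter (· ∈ T), d s • coordVector m s‖ ≤ T.card * (2 * ε') := by
    refine (norm_sum_le _ _).trans ((Finset.sum_le_sum h1).trans ?_)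
    rw [Finset.sum_const, nsmul_eq_mul]
    refine mul_le_mul_of_nonneg_right ?_ (by positivity)
    exact_mod_cast Finset.card_le_card fun s hs => (Finset.mem_filter.mp hs).2
  have e : y - ∑ s ∈ B.filter (· ∉ T), d s • coordVector m s =
      (y - ∑ s ∈ B, d s • coordVector m s) + ∑ s ∈ B.filter (· ∈ T), d s • coordVector m s := by
    rw [← Finset.sum_filter_add_sum_filter_not B (· ∈ T)]; abel
  rw [e]
  refine (norm_add_le _ _).trans ((add_le_add hB h2).trans (le_of_eq ?_))
  rw [hε']; field_simp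

theorem mid_main {m : PotentialModel} {x : LL m} (hx : x ∈ modelSpace m) {η : ℝ} (hη : 0 < η) :
    ∃ Φ : Finset (LL m →L[ℝ] ℝ), ∀ y ∈ modelSpace m, (∀ φ ∈ Φ, φ y = 0) →
      ∀ a b : ℝ, 0 ≤ a → 0 ≤ b → b ≤ 1 / 2 → a ^ 2 + b ^ 2 ≤ 1 →
        a * ‖x‖ + b * ‖y‖ / 2 - η ≤ (‖x + y‖ + ‖x - y‖) / 2 := by
  classical
  have hε : 0 < η / 5 := by positivity
  obtain ⟨A, c, hA⟩ := exists_comb hx hε
  obtain ⟨f, hf⟩ := exists_norming (m := m) A c hε
  set T : Finset (List ℕ) := insert [] (A.biUnion fun s => s.tails.toFinset) with hT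
  have hT0 : [] ∈ T := Finset.mem_insert_self _ _
  have hT1 : ∀ a v, a :: v ∈ T → v ∈ T := by
    intro a v h
    simp only [hT, Finset.mem_insert, Finset.mem_biUnion, List.mem_toFinset, List.mem_tails] at h ⊢
    rcases h with h | ⟨s, hs, h⟩
    · simp at h
    · exact Or.inr ⟨s, hs, (List.suffix_cons a v).trans h⟩
  have hAT : ∀ s ∈ A, s ∈ T := by
    intro s hs
    simp only [hT, Finset.mem_insert, Finset.mem_biUnion, List.mem_toFinset, List.mem_tails]
    exact Or.inr ⟨s, hs, List.suffix_refl s⟩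
  refine ⟨T.image fun s => ev m (dl s), fun y hy hΦ a b ha0 hb0 hb1 hab => ?_⟩
  obtain ⟨B, d, hBT, hB⟩ := exists_comb_off T hy
    (fun s hs => hΦ _ (Finset.mem_image_of_mem _ hs)) hε
  obtain ⟨g, hg⟩ := exists_norming (m := m) B d hε
  have ha1 : a ≤ 1 := by nlinarith
  obtain ⟨fp, fm, hp1, hm1, hin, hout⟩ := combine f.1 g.1 f.2.1 g.2.1 T hT0 hT1 ha0 ha1 hb0 hb1
  have hdom : ∀ h : List ℕ → ℝ, (∀ s ∈ T, h s = a * f.1 s) → (∀ s ∉ T, |h s| ≤ b * |g.1 s|) →
      ExtraCondition m h := by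
    intro h h1 h2
    refine extra_of_dom f.2.2 g.2.2 (sq_nonneg a) (sq_nonneg b) hab fun s => ?_
    by_cases hs : s ∈ T
    · rw [h1 s hs, mul_pow]
      have : 0 ≤ b ^ 2 * g.1 s ^ 2 := by positivity
      linarith
    · have h3 := pow_le_pow_left₀ (abs_nonneg _) (h2 s hs) 2
      rw [sq_abs, mul_pow, sq_abs] at h3
      have : 0 ≤ a ^ 2 * f.1 s ^ 2 := by positivity
      linarith
  have htp : IsTest m fp := ⟨hp1, hdom fp (fun s hs => (hin s hs).1) fun s hs => (hout s hs).1⟩
  have htm : IsTest m fm := ⟨hm1, hdom fm (fun s hs => (hin s hs).2) fun s hs => (hout s hs).2.1⟩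
  set x' : LL m := ∑ s ∈ A, c s • coordVector m s with hx'
  set y' : LL m := ∑ s ∈ B, d s • coordVector m s with hy'
  have h1 := (le_abs_self _).trans (apply_le_norm (x' + y') ⟨fp, htp⟩)
  have h2 := (le_abs_self _).trans (apply_le_norm (x' - y') ⟨fm, htm⟩)
  rw [lp.coeFn_add, Pi.add_apply, hx', hy', comb_apply, comb_apply, ← hx', ← hy'] at h1
  rw [lp.coeFn_sub, Pi.sub_apply, hx', hy', comb_apply, comb_apply, ← hx', ← hy'] at h2
  have e1 : ∑ s ∈ A, c s * fp s = a * ∑ s ∈ A, c s * f.1 s := by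
    rw [Finset.mul_sum]
    exact Finset.sum_congr rfl fun s hs => by rw [(hin s (hAT s hs)).1]; ring
  have e2 : ∑ s ∈ A, c s * fm s = a * ∑ s ∈ A, c s * f.1 s := by
    rw [Finset.mul_sum]
    exact Finset.sum_congr rfl fun s hs => by rw [(hin s (hAT s hs)).2]; ring
  have e3 : ∑ s ∈ B, d s * fp s - ∑ s ∈ B, d s * fm s = b * ∑ s ∈ B, d s * g.1 s := by
    rw [Finset.mul_sum, ← Finset.sum_sub_distrib]
    exact Finset.sum_congr rfl fun s hs => by rw [← mul_sub, (hout s (hBT s hs)).2.2]; ring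
  simp only at h1 h2
  rw [e1] at h1
  rw [e2] at h2
  have h3 : ‖x‖ - η / 5 ≤ ‖x'‖ := by linarith [norm_sub_norm_le x x']
  have h4 : ‖y‖ - η / 5 ≤ ‖y'‖ := by linarith [norm_sub_norm_le y y']
  have h5 : ‖x' + y'‖ ≤ ‖x + y‖ + 2 * (η / 5) := by
    have : x' + y' = (x + y) - (x - x') - (y - y') := by abel
    rw [this]
    linarith [norm_sub_le ((x + y) - (x - x')) (y - y'), norm_sub_le (x + y) (x - x')]
  have h6 : ‖x' - y'‖ ≤ ‖x - y‖ + 2 * (η / 5) := by
    have : x' - y' = (x - y) - (x - x') + (y - y') := by abel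
    rw [this]
    linarith [norm_add_le ((x - y) - (x - x')) (y - y'), norm_sub_le (x - y) (x - x')]
  have h7 : a * (‖x‖ - 2 * (η / 5)) ≤ a * ∑ s ∈ A, c s * f.1 s :=
    mul_le_mul_of_nonneg_left (by linarith) ha0
  have h8 : b * (‖y‖ - 2 * (η / 5)) ≤ b * ∑ s ∈ B, d s * g.1 s :=
    mul_le_mul_of_nonneg_left (by linarith) hb0
  nlinarith

theorem mid_sqrt {m : PotentialModel} {x : LL m} (hx : x ∈ modelSpace m) {η : ℝ} (hη : 0 < η) :
    ∃ Φ : Finset (LL m →L[ℝ] ℝ), ∀ y ∈ modelSpace m, (∀ φ ∈ Φ, φ y = 0) →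
      Real.sqrt (‖x‖ ^ 2 + ‖y‖ ^ 2 / 4) - η ≤ (‖x + y‖ + ‖x - y‖) / 2 := by
  obtain ⟨Φ, hΦ⟩ := mid_main hx hη
  refine ⟨Φ, fun y hy hy0 => ?_⟩
  set ρ := Real.sqrt (‖x‖ ^ 2 + ‖y‖ ^ 2 / 4) with hρ
  have hρ2 : ρ ^ 2 = ‖x‖ ^ 2 + ‖y‖ ^ 2 / 4 := Real.sq_sqrt (by positivity)
  rcases le_or_gt ρ ‖y‖ with h | h
  · have h1 := norm_sub_le (x + y) (x - y)
    rw [show x + y - (x - y) = (2 : ℝ) • y by module, norm_smul, Real.norm_eq_abs, abs_two] at h1
    linarith
  · have hρ0 : 0 < ρ := lt_of_le_of_lt (norm_nonneg _) h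
    have h1 := hΦ y hy hy0 (‖x‖ / ρ) (‖y‖ / 2 / ρ) (by positivity) (by positivity)
      (by rw [div_le_iff₀ hρ0]; linarith)
      (by rw [div_pow, div_pow, ← add_div, hρ2, div_le_one (by rw [← hρ2]; positivity)]; linarith)
    have h2 : ‖x‖ / ρ * ‖x‖ + ‖y‖ / 2 / ρ * ‖y‖ / 2 = ρ := by
      field_simp
      linarith
    linarith

/-- branch vectors -/
noncomputable def bv (m : PotentialModel) : List ℕ → LL m
  | [] => coordVector m []
  | a :: v => bv m v + coordVector m (a :: v)

lemma bv_apply (m : PotentialModel) (f : PotentialTest m) : ∀ s, bv m s f = pathPotential f.1 s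
  | [] => rfl
  | a :: v => by
    simp only [bv, pathPotential]
    rw [lp.coeFn_add, Pi.add_apply, bv_apply m f v, coord_apply]

lemma norm_bv_le (m : PotentialModel) (s : List ℕ) : ‖bv m s‖ ≤ 1 :=
  lp.norm_le_of_forall_le zero_le_one fun f => by rw [bv_apply]; exact f.2.1 s

lemma le_norm_bv (m : PotentialModel) {s : List ℕ} (hs : s ≠ []) : 1 ≤ ‖bv m s‖ := by
  have := apply_le_norm (bv m s) ⟨dl s, isTest_dl (Or.inl hs)⟩
  rw [bv_apply, pot_dl, if_pos (List.suffix_refl s), abs_one] at this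
  exact this

lemma bv_sub (m : PotentialModel) (a : ℕ) (s : List ℕ) :
    bv m (a :: s) - bv m s = coordVector m (a :: s) := by
  simp only [bv, add_sub_cancel_left]

lemma le_norm_coord (m : PotentialModel) (a : ℕ) (s : List ℕ) : 1 ≤ ‖coordVector m (a :: s)‖ := by
  have := apply_le_norm (coordVector m (a :: s)) ⟨dl (a :: s), isTest_dl (Or.inl (by simp))⟩
  rw [coord_apply] at this
  simpa [dl] using this

lemma norm_sibling_le (m : PotentialModel) (s : List ℕ) (A : Finset ℕ) (σ : ℕ → ℝ)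
    (hσ : ∀ a, |σ a| ≤ 1) : ‖∑ a ∈ A, σ a • coordVector m (a :: s)‖ ≤ 1 * Real.sqrt A.card := by
  rw [one_mul]
  refine lp.norm_le_of_forall_le (Real.sqrt_nonneg _) fun f => ?_
  rw [lp.coeFn_sum, Finset.sum_apply, Real.norm_eq_abs]
  apply Real.abs_le_sqrt
  have h1 := Finset.sum_mul_sq_le_sq_mul_sq A σ fun a => f.1 (a :: s)
  have h2 : ∑ a ∈ A, σ a ^ 2 ≤ A.card := by
    have : ∀ a ∈ A, σ a ^ 2 ≤ 1 := fun a _ => by
      have := pow_le_pow_left₀ (abs_nonneg _) (hσ a) 2
      rwa [sq_abs, one_pow] at this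
    simpa using Finset.sum_le_sum this
  have h3 := sibling_le f.2 s A
  have h4 : 0 ≤ ∑ a ∈ A, f.1 (a :: s) ^ 2 := Finset.sum_nonneg fun _ _ => sq_nonneg _
  have h5 : (0 : ℝ) ≤ A.card := Nat.cast_nonneg _
  refine h1.trans ?_
  calc _ ≤ (A.card : ℝ) * 1 := mul_le_mul h2 h3 h4 h5
    _ = _ := mul_one _

lemma coord_mem (m : PotentialModel) (s : List ℕ) : coordVector m s ∈ modelSpace m :=
  Submodule.le_topologicalClosure _ (Submodule.subset_span ⟨s, rfl⟩)

lemma bv_mem (m : PotentialModel) : ∀ s, bv m s ∈ modelSpace m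
  | [] => coord_mem m []
  | a :: v => (modelSpace m).add_mem (bv_mem m v) (coord_mem m (a :: v))

lemma isSeparable_modelSpace (m : PotentialModel) :
    TopologicalSpace.IsSeparable (modelSpace m : Set (LL m)) :=
  (Set.countable_range (coordVector m)).isSeparable.span.closure

theorem good_model (m : PotentialModel) (n : ℕ) : ∃ x : modelSpace m, Good 1 1 n x := by
  let b : List ℕ → modelSpace m := fun s => ⟨bv m s, bv_mem m s⟩
  refine good_of_tree b n (fun s hs _ => ⟨le_norm_bv m hs, norm_bv_le m s⟩) (fun s a _ => ?_)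
    (fun s _ => ⟨1, fun A σ hσ => ?_⟩)
  · rw [← Submodule.norm_coe, Submodule.coe_sub, bv_sub]
    exact le_norm_coord m a s
  · rw [← Submodule.norm_coe, Submodule.coe_sum]
    simp only [Submodule.coe_smul, Submodule.coe_sub, b, bv_sub]
    exact norm_sibling_le m s A σ hσ

end Crest.Agent.R125
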