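import Mathlib
import Crest.Agent.R125.L2Sum
import Crest.Agent.R125.Potential

set_option autoImplicit false

namespace Crest.Agent.R125

open Filter Topology Crest.AnalysisR.TreePotential

/-- vertices of height at most `n` -/
abbrev Vn (n : ℕ) : Type := {s : List ℕ // s.length ≤ n}

/-- Hilbert space on the truncated tree -/
abbrev Hn (n : ℕ) : Type := lp (fun _ : Vn n => ℝ) 2

lemma tst_sum (n : ℕ) (f : PotentialTest .global) (A : Finset (Vn n)) :
    ∑ s ∈ A, ‖f.1 s.1‖ ^ (2 : ENNReal).toReal ≤ 1 := by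
  classical
  have h := f.2.2 (A.image Subtype.val)
  rw [Finset.sum_image (fun x _ y _ h => Subtype.ext h)] at h
  simpa using h

/-- restriction of a test -/
noncomputable def tst (n : ℕ) (f : PotentialTest .global) : Hn n :=
  ⟨fun s => f.1 s.1, memℓp_gen' (tst_sum n f)⟩

lemma norm_tst_le (n : ℕ) (f : PotentialTest .global) : ‖tst n f‖ ≤ 1 :=
  lp.norm_le_of_forall_sum_le (by norm_num) zero_le_one fun A => by
    rw [Real.one_rpow]; exact tst_sum n f A

lemma inner_tst_le (n : ℕ) (f : PotentialTest .global) (u : Hn n) :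
    ‖inner ℝ (tst n f) u‖ ≤ ‖u‖ :=
  (norm_inner_le_norm _ _).trans (mul_le_of_le_one_left (norm_nonneg _) (norm_tst_le n f))

/-- the embedding of the Hilbert space -/
noncomputable def JJ (n : ℕ) : Hn n →L[ℝ] LL .global :=
  LinearMap.mkContinuous
    { toFun := fun u => ⟨fun f => inner ℝ (tst n f) u, memℓp_infty ⟨‖u‖, by
        rintro _ ⟨f, rfl⟩
        exact inner_tst_le n f u⟩⟩
      map_add' := fun u v => by
        ext f
        exact inner_add_right _ _ _
      map_smul' := fun c u => by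
        ext f
        exact inner_smul_right _ _ _ } 1
    (fun u => by
      rw [one_mul]
      exact lp.norm_le_of_forall_le (norm_nonneg _) fun f => inner_tst_le n f u)

lemma JJ_apply (n : ℕ) (u : Hn n) (f : PotentialTest .global) :
    JJ n u f = inner ℝ (tst n f) u := rfl

lemma JJ_lower (n : ℕ) (u : Hn n) : ‖u‖ ≤ (n + 1) * ‖JJ n u‖ := by
  classical
  rcases (norm_nonneg u).eq_or_lt with h0 | h0
  · rw [← h0]; positivity
  set c : ℝ := 1 / ((n + 1) * ‖u‖) with hc
  have hc0 : 0 < c := by positivity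
  let f : List ℕ → ℝ := fun s => if h : s.length ≤ n then c * u ⟨s, h⟩ else 0
  have hf1 : ∀ s, |f s| ≤ 1 / (n + 1) := by
    intro s
    simp only [f]
    split_ifs with h
    · rw [abs_mul, abs_of_pos hc0]
      have : |u ⟨s, h⟩| ≤ ‖u‖ := lp.norm_apply_le_norm (by norm_num) u ⟨s, h⟩
      calc _ ≤ c * ‖u‖ := by gcongr
        _ = _ := by rw [hc]; field_simp
    · rw [abs_zero]; positivity
  have hf2 : ∀ s : List ℕ, |pathPotential f s| ≤ (min s.length n + 1 : ℕ) * (1 / (n + 1) : ℝ) := by
    intro s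
    induction s with
    | nil => simpa [pathPotential] using hf1 []
    | cons a v ih =>
      simp only [pathPotential]
      by_cases h : (a :: v).length ≤ n
      · have h1 : min (a :: v).length n + 1 = (min v.length n + 1) + 1 := by
          simp only [List.length_cons] at h ⊢; omega
        rw [h1, Nat.cast_add _ 1, add_mul, Nat.cast_one, one_mul]
        exact (abs_add_le _ _).trans (add_le_add ih (hf1 _))
      · have h1 : min (a :: v).length n + 1 = (min v.length n + 1) := by
          simp only [List.length_cons] at h ⊢; omega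
        have h2 : f (a :: v) = 0 := dif_neg h
        rw [h1, h2, add_zero]
        exact ih
  have ht : IsTest .global f := by
    refine ⟨fun s => (hf2 s).trans ?_, fun A => ?_⟩
    · have : ((min s.length n + 1 : ℕ) : ℝ) ≤ n + 1 := by
        exact_mod_cast Nat.succ_le_succ (min_le_right _ _)
      calc _ ≤ ((n : ℝ) + 1) * (1 / (n + 1)) := by gcongr
        _ = 1 := by field_simp
    · have e1 : ∑ s ∈ A, f s ^ 2 = ∑ s ∈ A.subtype (fun s => s.length ≤ n), f s.1 ^ 2 := by
        rw [Finset.sum_subtype_eq_sum_filter (f := fun s => f s ^ 2), Finset.sum_filter]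
        refine Finset.sum_congr rfl fun s _ => ?_
        split_ifs with h
        · rfl
        · have : f s = 0 := dif_neg h
          rw [this]; ring
      have e2 : ∀ s : Vn n, f s.1 ^ 2 = c ^ 2 * ‖u s‖ ^ (2 : ENNReal).toReal := by
        intro s
        have : f s.1 = c * u s := dif_pos s.2
        rw [this, mul_pow]
        simp
      rw [e1]
      simp only [e2]
      rw [← Finset.mul_sum]
      have h3 := lp.sum_rpow_le_norm_rpow (p := 2) (by norm_num) u
        (A.subtype (fun s => s.length ≤ n))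
      have h4 : ‖u‖ ^ (2 : ENNReal).toReal = ‖u‖ ^ 2 := by simp
      rw [h4] at h3
      calc _ ≤ c ^ 2 * ‖u‖ ^ 2 := by gcongr
        _ = (1 / (n + 1)) ^ 2 := by rw [hc]; field_simp
        _ ≤ 1 := by
          apply pow_le_one₀ (by positivity)
          rw [div_le_one (by positivity)]
          linarith [(Nat.cast_nonneg n : (0 : ℝ) ≤ n)]
  have h1 : tst n ⟨f, ht⟩ = c • u := by
    ext s
    exact dif_pos s.2
  have h2 := apply_le_norm (JJ n u) ⟨f, ht⟩
  rw [JJ_apply, h1, inner_smul_left, real_inner_self_eq_norm_sq] at h2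
  simp only [conj_trivial] at h2
  rw [abs_of_nonneg (by positivity)] at h2
  calc ‖u‖ = (n + 1) * (c * ‖u‖ ^ 2) := by rw [hc]; field_simp
    _ ≤ _ := by gcongr

lemma JJ_antilipschitz (n : ℕ) : AntilipschitzWith (n + 1) (JJ n) :=
  (JJ n).antilipschitz_of_bound (K := n + 1) fun u => by simpa using JJ_lower n u

open Classical in
lemma JJ_single (n : ℕ) (s : Vn n) (a : ℝ) :
    JJ n (lp.single 2 s a) = a • coordVector .global s.1 := by
  ext f
  rw [JJ_apply, lp.inner_single_right]
  change inner ℝ (f.1 s.1) a = a * f.1 s.1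
  simp

lemma JJ_mem (n : ℕ) (u : Hn n) : JJ n u ∈ modelSpace .global := by
  classical
  have h := (JJ n).hasSum (lp.hasSum_single (by norm_num) u)
  refine (Submodule.isClosed_topologicalClosure _).mem_of_tendsto h
    (Eventually.of_forall fun A => ?_)
  refine Submodule.sum_mem _ fun s _ => ?_
  rw [JJ_single]
  exact Submodule.smul_mem _ _ (coord_mem _ _)

/-- the block of height `n` -/
noncomputable def Blk (n : ℕ) : Submodule ℝ (LL .global) := (JJ n).range

lemma isClosed_range_JJ (n : ℕ) : IsClosed (Set.range (JJ n)) :=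
  (JJ_antilipschitz n).isClosed_range (JJ n).uniformContinuous

instance (n : ℕ) : CompleteSpace (Blk n) := (isClosed_range_JJ n).completeSpace_coe

lemma refl_Blk (n : ℕ) : Refl (Blk n) :=
  refl_of_hilbert ((JJ n).equivRange (JJ_antilipschitz n).injective (isClosed_range_JJ n))

lemma Blk_le (n : ℕ) (x : Blk n) : (x : LL .global) ∈ modelSpace .global := by
  obtain ⟨_, u, rfl⟩ := x
  exact JJ_mem n u

instance (n : ℕ) : TopologicalSpace.SeparableSpace (Blk n) :=
  ((isSeparable_modelSpace .global).mono fun x hx => Blk_le n ⟨x, hx⟩).separableSpace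

lemma coord_mem_Blk {n : ℕ} {s : List ℕ} (h : s.length ≤ n) : coordVector .global s ∈ Blk n := by
  classical
  refine ⟨lp.single 2 ⟨s, h⟩ 1, ?_⟩
  have := JJ_single n ⟨s, h⟩ 1
  rw [one_smul] at this
  exact this

lemma bv_mem_Blk {n : ℕ} : ∀ {s : List ℕ}, s.length ≤ n → bv .global s ∈ Blk n
  | [], h => coord_mem_Blk h
  | _ :: _, h => (Blk n).add_mem (bv_mem_Blk (by simp only [List.length_cons] at h; omega))
      (coord_mem_Blk h)

/-- the example -/
abbrev EE : Type := lp (fun n => Blk n) 2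

theorem refl_EE : Refl EE := refl_l2 refl_Blk

theorem midSq_EE : MidSq EE := by
  classical
  refine midSq_l2 fun k x η hη => ?_
  obtain ⟨Φ, hΦ⟩ := mid_sqrt (Blk_le k x) hη
  refine ⟨Φ.image fun φ => φ.comp (Blk k).subtypeL, fun y hy => ?_⟩
  exact hΦ y (Blk_le k y) fun φ hφ => hy _ (Finset.mem_image_of_mem _ hφ)

theorem good_EE (n : ℕ) : ∃ x : EE, Good 1 1 n x := by
  classical
  let sg : Blk (n + 1) →L[ℝ] EE := lp.singleContinuousLinearMap ℝ (fun n => Blk n) 2 (n + 1)
  have hsg : ∀ x, ‖sg x‖ = ‖(x : LL .global)‖ := fun x =>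
    lp.norm_single (E := fun n => Blk n) (by norm_num) (n + 1) x
  let b' : List ℕ → Blk (n + 1) := fun s =>
    if h : s.length ≤ n + 1 then ⟨bv .global s, bv_mem_Blk h⟩ else 0
  have hb' : ∀ s, s.length ≤ n + 1 → (b' s : LL .global) = bv .global s := by
    intro s h
    simp only [b', dif_pos h]
  have hd : ∀ s a, s.length ≤ n →
      ((b' (a :: s) - b' s : Blk (n + 1)) : LL .global) = coordVector .global (a :: s) := by
    intro s a h
    rw [Submodule.coe_sub, hb' _ (by simpa using h), hb' _ (by omega), bv_sub]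
  refine good_of_tree (fun s => sg (b' s)) n (fun s hs hl => ?_) (fun s a hl => ?_)
    (fun s hl => ⟨1, fun A σ hσ => ?_⟩)
  · rw [hsg, hb' s hl]
    exact ⟨le_norm_bv _ hs, norm_bv_le _ s⟩
  · rw [← map_sub, hsg, hd s a hl]
    exact le_norm_coord _ a s
  · simp only [← map_sub, ← map_smul, ← map_sum]
    rw [hsg, Submodule.coe_sum]
    simp only [Submodule.coe_smul, hd s _ hl]
    exact norm_sibling_le _ s A σ hσ

theorem moduli_EE (x : EE) (hx : ‖x‖ = 1) {t η : ℝ} (ht : 0 < t) (hη : 0 < η) :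
    ∃ F : Set EE, Cof F ∧ ∀ y ∈ F, ‖y‖ = 1 →
      Real.sqrt (1 + t ^ 2 / 12) - 1 - η ≤ (‖x + t • y‖ + ‖x - t • y‖) / 2 - 1 ∧
      (Real.sqrt (1 + t ^ 2 / 4) - 1) / 2 - η ≤ (‖x + t • y‖ + ‖x - t • y‖) / 2 - 1 ∧
      Real.sqrt (1 + t ^ 2 / 4) - 1 - η ≤ max ‖x + t • y‖ ‖x - t • y‖ - 1 := by
  classical
  obtain ⟨Φ, hΦ⟩ := midSq_EE x t η hη
  obtain ⟨ψ, hψ1, hψ2⟩ := exists_dual_vector'' ℝ x
  refine ⟨kerSet (insert ψ Φ), cof_kerSet _, fun y hyF hy => ?_⟩
  have hty : ‖t • y‖ = t := by rw [norm_smul, hy, Real.norm_eq_abs, abs_of_pos ht, mul_one]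
  have h1 := hΦ (t • y) (fun φ hφ => by
    rw [map_smul, hyF φ (Finset.mem_insert_of_mem hφ), smul_zero]) hty.le
  have hψy : ψ (t • y) = 0 := by rw [map_smul, hyF ψ (Finset.mem_insert_self _ _), smul_zero]
  have hlow : ∀ z : EE, ψ z = 1 → 1 ≤ ‖z‖ := by
    intro z hz
    have h2 := ψ.le_opNorm z
    have h3 := mul_le_mul_of_nonneg_right hψ1 (norm_nonneg z)
    rw [hz, norm_one] at h2
    linarith
  have hx1 : ψ x = 1 := by rw [hψ2, hx]; rfl
  have hp := hlow (x + t • y) (by rw [map_add, hx1, hψy, add_zero])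
  have hq := hlow (x - t • y) (by rw [map_sub, hx1, hψy, sub_zero])
  rw [hx, hty] at h1
  set p := ‖x + t • y‖
  set q := ‖x - t • y‖
  have hM : Real.sqrt (1 + t ^ 2 / 4) ≤ max p q + η := by
    have h2 := le_max_left p q
    have h3 := le_max_right p q
    apply Real.sqrt_le_iff.mpr
    refine ⟨by linarith, ?_⟩
    have h4 := pow_le_pow_left₀ (by linarith) h2 2
    have h5 := pow_le_pow_left₀ (by linarith) h3 2
    nlinarith
  refine ⟨?_, ?_, by linarith⟩
  · have : Real.sqrt (1 + t ^ 2 / 12) ≤ (p + q) / 2 + η := by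
      apply Real.sqrt_le_iff.mpr
      refine ⟨by linarith, ?_⟩
      nlinarith [mul_nonneg (sub_nonneg.mpr hp) (sub_nonneg.mpr hq), sq_nonneg t]
    linarith
  · rcases max_cases p q with h | h <;> rw [h.1] at hM <;> linarith

end Crest.Agent.R125
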