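import Mathlib
import Crest.Prelude.Def_DaugavetL1
import Crest.Agent.R125.Basic

set_option autoImplicit false

namespace Crest.Agent.R125

open Finset Crest.AnalysisR.L1Subspace

variable {X : Type} [NormedAddCommGroup X] [NormedSpace ℝ X]

lemma slice_aux (hD : HasDaugavetProperty X) (φ : X →L[ℝ] ℝ) (hφ : ‖φ‖ = 1) (v : X) (hv : v ≠ 0)
    {ε : ℝ} (hε : 0 < ε) : ∃ z : X, ‖z‖ ≤ 1 ∧ 1 - ε ≤ φ z ∧ ‖v‖ + 1 - ε ≤ ‖v + z‖ := by
  have hv0 : 0 < ‖v‖ := norm_pos_iff.mpr hv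
  have h1 := hD φ v
  rw [ContinuousLinearMap.norm_smulRight_apply, hφ, one_mul] at h1
  set η := min (ε / 2) (ε * ‖v‖) with hη
  have hη0 : 0 < η := by positivity
  have hη1 : η ≤ ε / 2 := min_le_left _ _
  have hη2 : η ≤ ε * ‖v‖ := min_le_right _ _
  obtain ⟨z, hz1, hz2⟩ := ContinuousLinearMap.exists_lt_apply_of_lt_opNorm
    (ContinuousLinearMap.id ℝ X + φ.smulRight v) (r := 1 + ‖v‖ - η) (by rw [h1]; linarith)
  have main : ∀ z : X, ‖z‖ < 1 → 1 + ‖v‖ - η < ‖z + φ z • v‖ → 0 ≤ φ z →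
      ‖z‖ ≤ 1 ∧ 1 - ε ≤ φ z ∧ ‖v‖ + 1 - ε ≤ ‖v + z‖ := by
    intro z hz1 hz2 hz3
    have h2 : φ z ≤ 1 := by
      have := φ.le_opNorm z
      rw [hφ, one_mul, Real.norm_eq_abs] at this
      exact (le_abs_self _).trans (this.trans hz1.le)
    have h3 : ‖z + φ z • v‖ ≤ ‖z‖ + φ z * ‖v‖ := by
      refine (norm_add_le _ _).trans ?_
      rw [norm_smul, Real.norm_eq_abs, abs_of_nonneg hz3]
    have h4 : (1 - φ z) * ‖v‖ ≤ η := by nlinarith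
    have h5 : ‖z + φ z • v‖ ≤ ‖v + z‖ + (1 - φ z) * ‖v‖ := by
      have : z + φ z • v = (v + z) - (1 - φ z) • v := by module
      rw [this]
      refine (norm_sub_le _ _).trans ?_
      rw [norm_smul, Real.norm_eq_abs, abs_of_nonneg (by linarith)]
    refine ⟨hz1.le, ?_, by linarith⟩
    have : (1 - φ z) * ‖v‖ ≤ ε * ‖v‖ := h4.trans hη2
    have := le_of_mul_le_mul_right this hv0
    linarith
  have hz2' : 1 + ‖v‖ - η < ‖z + φ z • v‖ := by simpa using hz2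
  rcases le_total 0 (φ z) with h | h
  · exact ⟨z, main z hz1 hz2' h⟩
  · refine ⟨-z, main (-z) (by simpa using hz1) ?_ (by simpa using h)⟩
    rw [map_neg, neg_smul, ← neg_add, norm_neg]
    exact hz2'

lemma slice [Nontrivial X] (hD : HasDaugavetProperty X) (ψ : X →L[ℝ] ℝ) (v : X)
    {ε : ℝ} (hε : 0 < ε) : ∃ z : X, ‖z‖ ≤ 1 ∧ ‖ψ‖ - ε ≤ ψ z ∧ ‖v‖ + 1 - ε ≤ ‖v + z‖ := by
  obtain ⟨v0, hv0⟩ := exists_ne (0 : X)
  obtain ⟨φ, hφ, hψ⟩ : ∃ φ : X →L[ℝ] ℝ, ‖φ‖ = 1 ∧ ψ = ‖ψ‖ • φ := by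
    by_cases h : ψ = 0
    · obtain ⟨g, hg, -⟩ := exists_dual_vector ℝ v0 (norm_ne_zero_iff.mpr hv0)
      exact ⟨g, hg, by simp [h]⟩
    · have h' : ‖ψ‖ ≠ 0 := norm_ne_zero_iff.mpr h
      refine ⟨‖ψ‖⁻¹ • ψ, ?_, ?_⟩
      · rw [norm_smul, norm_inv, norm_norm, inv_mul_cancel₀ h']
      · rw [smul_smul, mul_inv_cancel₀ h', one_smul]
  set η := ε / (‖ψ‖ + 1) with hη
  have hη0 : 0 < η := by positivity
  have hη1 : η * (‖ψ‖ + 1) = ε := by rw [hη]; field_simp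
  have hn := norm_nonneg ψ
  have conv : ∀ z : X, 1 - η ≤ φ z → ‖ψ‖ - ε ≤ ψ z := by
    intro z hz
    have : ψ z = ‖ψ‖ * φ z := by
      conv_lhs => rw [hψ]
      simp
    rw [this]
    nlinarith
  by_cases hv : v = 0
  · obtain ⟨z, h1, h2, h3⟩ := slice_aux hD φ hφ v0 hv0 hη0
    refine ⟨z, h1, conv z h2, ?_⟩
    have := norm_add_le v0 z
    rw [hv, zero_add, norm_zero]
    nlinarith
  · obtain ⟨z, h1, h2, h3⟩ := slice_aux hD φ hφ v hv hη0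
    exact ⟨z, h1, conv z h2, by nlinarith⟩

lemma greedy [Nontrivial X] (hD : HasDaugavetProperty X) (x : X) (hx : ‖x‖ ≤ 1)
    (Φ : Finset (X →L[ℝ] ℝ)) (v : X) {ε : ℝ} (hε : 0 < ε) (k : ℕ) :
    ∃ S : X, ‖S‖ ≤ k ∧ ∑ φ ∈ Φ, φ (S - (k : ℝ) • x) ^ 2 ≤ k * (2 * ε + ∑ φ ∈ Φ, 4 * ‖φ‖ ^ 2) ∧
      ‖v‖ + k * (1 - ε) ≤ ‖v + S‖ := by
  induction k with
  | zero => exact ⟨0, by simp, by simp, by simp⟩
  | succ k ih =>
    obtain ⟨S, h1, h2, h3⟩ := ih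
    obtain ⟨z, hz1, hz2, hz3⟩ := slice hD (-∑ φ ∈ Φ, φ (S - (k : ℝ) • x) • φ) (v + S) hε
    refine ⟨S + z, ?_, ?_, ?_⟩
    · push_cast
      exact (norm_add_le _ _).trans (add_le_add h1 hz1)
    · set ψ := -∑ φ ∈ Φ, φ (S - (k : ℝ) • x) • φ with hψ
      have h4 : ψ x ≤ ‖ψ‖ := by
        have := ψ.le_opNorm x
        have h5 := mul_le_mul_of_nonneg_left hx (norm_nonneg ψ)
        rw [Real.norm_eq_abs] at this
        linarith [le_abs_self (ψ x)]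
      have h5 : ∑ φ ∈ Φ, φ (S - (k : ℝ) • x) * φ (z - x) ≤ ε := by
        have : ψ (z - x) = -∑ φ ∈ Φ, φ (S - (k : ℝ) • x) * φ (z - x) := by
          simp [hψ]
        rw [map_sub] at this
        linarith
      have h6 : ∑ φ ∈ Φ, φ (z - x) ^ 2 ≤ ∑ φ ∈ Φ, 4 * ‖φ‖ ^ 2 := by
        refine Finset.sum_le_sum fun φ _ => ?_
        have h7 : ‖z - x‖ ≤ 2 := (norm_sub_le _ _).trans (by linarith)
        have h8 : |φ (z - x)| ≤ ‖φ‖ * 2 :=
          (φ.le_opNorm _).trans (mul_le_mul_of_nonneg_left h7 (norm_nonneg _))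
        have := pow_le_pow_left₀ (abs_nonneg _) h8 2
        rw [sq_abs] at this
        linarith
      have e : ∑ φ ∈ Φ, φ (S + z - ((k + 1 : ℕ) : ℝ) • x) ^ 2 =
          ∑ φ ∈ Φ, φ (S - (k : ℝ) • x) ^ 2 + 2 * ∑ φ ∈ Φ, φ (S - (k : ℝ) • x) * φ (z - x)
            + ∑ φ ∈ Φ, φ (z - x) ^ 2 := by
        rw [Finset.mul_sum, ← Finset.sum_add_distrib, ← Finset.sum_add_distrib]
        refine Finset.sum_congr rfl fun φ _ => ?_
        have : S + z - ((k + 1 : ℕ) : ℝ) • x = (S - (k : ℝ) • x) + (z - x) := by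
          push_cast; module
        rw [this, map_add]; ring
      rw [e]
      push_cast
      linarith
    · push_cast
      rw [← add_assoc]
      linarith

/-- every weak neighbourhood of a point of the ball contains almost diametral points -/
theorem daugavet_weak [Nontrivial X] (hD : HasDaugavetProperty X) (x : X) (hx : ‖x‖ ≤ 1)
    (Φ : Finset (X →L[ℝ] ℝ)) {δ ε : ℝ} (hδ : 0 < δ) (hε : 0 < ε) :
    ∃ z : X, ‖z‖ ≤ 1 ∧ (∀ φ ∈ Φ, |φ (z - x)| ≤ δ) ∧ ‖x‖ + 1 - ε ≤ ‖z - x‖ := by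
  set D := 2 * ε + ∑ φ ∈ Φ, 4 * ‖φ‖ ^ 2 with hDdef
  have hD0 : 0 < D := by positivity
  obtain ⟨m, hm⟩ := exists_nat_gt (D / δ ^ 2)
  have hm0 : (0 : ℝ) < m := lt_trans (by positivity) hm
  obtain ⟨S, h1, h2, h3⟩ := greedy hD x hx Φ (-((m : ℝ) • x)) hε m
  have e : (m : ℝ)⁻¹ • S - x = (m : ℝ)⁻¹ • (S - (m : ℝ) • x) := by
    rw [smul_sub, smul_smul, inv_mul_cancel₀ hm0.ne', one_smul]
  refine ⟨(m : ℝ)⁻¹ • S, ?_, fun φ hφ => ?_, ?_⟩
  · rw [norm_smul, norm_inv, Real.norm_eq_abs, abs_of_pos hm0, inv_mul_le_iff₀ hm0]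
    linarith
  · rw [e, map_smul, smul_eq_mul, abs_mul, abs_of_pos (inv_pos.mpr hm0), inv_mul_le_iff₀ hm0]
    have h4 : φ (S - (m : ℝ) • x) ^ 2 ≤ m * D :=
      (Finset.single_le_sum (f := fun φ : X →L[ℝ] ℝ => φ (S - (m : ℝ) • x) ^ 2)
        (fun _ _ => sq_nonneg _) hφ).trans h2
    rw [div_lt_iff₀ (by positivity)] at hm
    apply abs_le_of_sq_le_sq' ?_ (by positivity) |>.elim (fun h1 h2 => abs_le.mpr ⟨h1, h2⟩)
    nlinarith
  · rw [e, norm_smul, norm_inv, Real.norm_eq_abs, abs_of_pos hm0, le_inv_mul_iff₀ hm0]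
    rw [norm_neg, norm_smul, Real.norm_eq_abs, abs_of_pos hm0, neg_add_eq_sub] at h3
    linarith

theorem good_of_daugavet [Nontrivial X] (hD : HasDaugavetProperty X) (n : ℕ) :
    ∃ x : X, Good (1 / 2) 1 n x := by
  have key : ∀ (j : ℕ) (x : X), 1 / 2 ≤ ‖x‖ → ‖x‖ ≤ 1 → Good (1 / 2) 1 j x := by
    intro j
    induction j with
    | zero => intro x h1 h2; exact ⟨h1, h2⟩
    | succ j ih =>
      intro x h1 h2
      refine ⟨h1, h2, fun Φ δ hδ => ?_⟩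
      obtain ⟨z, hz1, hz2, hz3⟩ := daugavet_weak hD x h2 Φ hδ (ε := 1 / 2) (by norm_num)
      have := norm_sub_le z x
      exact ⟨z, ih z (by linarith) hz1, by linarith, hz2⟩
  obtain ⟨x, hx⟩ := exists_norm_eq X (zero_le_one (α := ℝ))
  exact ⟨x, key n x (by rw [hx]; norm_num) hx.le⟩

theorem daugavet_dir [Nontrivial X] (hD : HasDaugavetProperty X) (x : X) (hx : ‖x‖ = 1)
    {F : Set X} (hF : Cof F) {η : ℝ} (hη : 0 < η) :
    ∃ y ∈ F, ‖y‖ = 1 ∧ ∀ t : ℝ, 0 < t → ‖x + t • y‖ ≤ 1 + max 0 (t - 2) + η := by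
  set ε := min (η / 3) (1 / 2) with hε
  have hε0 : 0 < ε := by positivity
  have hε1 : ε ≤ η / 3 := min_le_left _ _
  have hε2 : ε ≤ 1 / 2 := min_le_right _ _
  obtain ⟨Φ, δ, hδ, hΦ⟩ := hF.approx hε0
  obtain ⟨z, hz1, hz2, hz3⟩ := daugavet_weak hD x hx.le Φ hδ hε0
  obtain ⟨u, huF, hu⟩ := hΦ _ hz2
  have h1 : ‖z - x‖ ≤ 2 := (norm_sub_le _ _).trans (by linarith)
  have h2 : 2 - 2 * ε ≤ ‖u‖ := by
    have := norm_sub_norm_le (z - x) u
    linarith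
  have h3 : ‖u‖ ≤ 2 + ε := by
    have := norm_sub_norm_le u (z - x)
    rw [norm_sub_rev u] at this
    linarith
  have hu0 : 0 < ‖u‖ := by linarith
  refine ⟨‖u‖⁻¹ • u, hF.smul_mem _ huF, ?_, fun t ht => ?_⟩
  · rw [norm_smul, norm_inv, norm_norm, inv_mul_cancel₀ hu0.ne']
  set y := ‖u‖⁻¹ • u with hy
  have hy1 : ‖y‖ = 1 := by rw [hy, norm_smul, norm_inv, norm_norm, inv_mul_cancel₀ hu0.ne']
  have huy : u = ‖u‖ • y := by rw [hy, smul_smul, mul_inv_cancel₀ hu0.ne', one_smul]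
  have h4 : ‖x + (2 : ℝ) • y‖ ≤ 1 + η := by
    have e : x + (2 : ℝ) • y = z - (z - x - u) + (2 - ‖u‖) • y := by
      rw [sub_smul, ← huy]; abel
    rw [e]
    have h5 : ‖(2 - ‖u‖) • y‖ ≤ 2 * ε := by
      rw [norm_smul, hy1, mul_one, Real.norm_eq_abs, abs_le]
      constructor <;> linarith
    have h6 := norm_add_le (z - (z - x - u)) ((2 - ‖u‖) • y)
    have h7 := norm_sub_le z (z - x - u)
    linarith
  rcases le_total t 2 with h | h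
  · have e : x + t • y = (1 - t / 2) • x + (t / 2) • (x + (2 : ℝ) • y) := by module
    rw [e]
    refine (norm_add_le _ _).trans ?_
    rw [norm_smul, norm_smul, hx, Real.norm_eq_abs, Real.norm_eq_abs, abs_of_nonneg (by linarith),
      abs_of_pos (by linarith)]
    have := le_max_left 0 (t - 2)
    nlinarith
  · have e : x + t • y = (x + (2 : ℝ) • y) + (t - 2) • y := by module
    rw [e]
    refine (norm_add_le _ _).trans ?_
    rw [norm_smul, hy1, Real.norm_eq_abs, abs_of_nonneg (by linarith)]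
    have := le_max_right 0 (t - 2)
    linarith

end Crest.Agent.R125
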