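import Mathlib
import Crest.Prelude.Def_DaugavetL1
import Crest.Agent.R125.Basic

set_option autoImplicit false

namespace Crest.Agent.R125

open MeasureTheory Crest.AnalysisR.L1Subspace

variable {Ω : Type} [MeasurableSpace Ω] {P : Measure Ω}

/-- sign function of an `L¹` class -/
noncomputable def sg (g : Lp ℝ 1 P) (ω : Ω) : ℝ := if 0 ≤ (g : Ω → ℝ) ω then 1 else -1

lemma sg_measurable (g : Lp ℝ 1 P) : Measurable (sg g) :=
  Measurable.ite (measurableSet_le measurable_const (Lp.stronglyMeasurable g).measurable)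
    measurable_const measurable_const

lemma abs_sg (g : Lp ℝ 1 P) (ω : Ω) : |sg g ω| = 1 := by
  unfold sg; split_ifs <;> simp

lemma integrable_mul_sg (g y : Lp ℝ 1 P) : Integrable (fun ω => (y : Ω → ℝ) ω * sg g ω) P :=
  (L1.integrable_coeFn y).mul_bdd (c := 1) (sg_measurable g).aestronglyMeasurable
    (Filter.Eventually.of_forall fun ω => by rw [Real.norm_eq_abs, abs_sg])

/-- the functional `y ↦ ∫ y sign g` -/
noncomputable def sgFun (g : Lp ℝ 1 P) : Lp ℝ 1 P →L[ℝ] ℝ :=
  LinearMap.mkContinuous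
    { toFun := fun y => ∫ ω, (y : Ω → ℝ) ω * sg g ω ∂P
      map_add' := fun y z => by
        rw [← integral_add (integrable_mul_sg g y) (integrable_mul_sg g z)]
        refine integral_congr_ae ?_
        filter_upwards [Lp.coeFn_add y z] with ω hω
        rw [hω, Pi.add_apply, add_mul]
      map_smul' := fun c y => by
        rw [RingHom.id_apply, smul_eq_mul, ← integral_const_mul]
        refine integral_congr_ae ?_
        filter_upwards [Lp.coeFn_smul c y] with ω hω
        rw [hω, Pi.smul_apply, smul_eq_mul, mul_assoc] } 1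
    (fun y => by
      rw [one_mul, L1.norm_eq_integral_norm y]
      refine (norm_integral_le_integral_norm _).trans (le_of_eq ?_)
      refine integral_congr_ae (Filter.Eventually.of_forall fun ω => ?_)
      simp only [norm_mul, Real.norm_eq_abs, abs_sg, mul_one])

lemma sgFun_apply (g y : Lp ℝ 1 P) : sgFun g y = ∫ ω, (y : Ω → ℝ) ω * sg g ω ∂P := rfl

lemma mid_lower [IsProbabilityMeasure P] (x : Lp ℝ 1 P) (hx : ‖x‖ = 1) {t η : ℝ} (ht : 0 < t)
    (hη : 0 < η) : ∃ ε : ℝ, 0 < ε ∧ ∀ y g : Lp ℝ 1 P, ‖y‖ = 1 → sgFun g y = 0 →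
      measureDist P y g < ε → t / 2 - η ≤ (‖x + t • y‖ + ‖x - t • y‖) / 2 - 1 := by
  have hxi := L1.integrable_coeFn x
  obtain ⟨δ, hδ0, hδ⟩ := exists_pos_setLIntegral_lt_of_measure_lt (μ := P)
    (f := fun ω => ‖(x : Ω → ℝ) ω‖ₑ) hxi.2.ne (ε := ENNReal.ofReal (η / 2))
    (by simpa using hη)
  obtain ⟨r, hr0, hr⟩ : ∃ r : ℝ, 0 < r ∧ ENNReal.ofReal r ≤ δ := by
    rcases eq_or_ne δ ⊤ with h | h
    · exact ⟨1, one_pos, h ▸ le_top⟩
    · exact ⟨δ.toReal, ENNReal.toReal_pos hδ0.ne' h, (ENNReal.ofReal_toReal h).le⟩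
  refine ⟨min r (η / (2 * t)), by positivity, fun y g hy hg hd => ?_⟩
  have hne : Set.Nonempty {a : ℝ | 0 < a ∧
      P {z | a < abs ((y : Ω → ℝ) z - (g : Ω → ℝ) z)} < ENNReal.ofReal a} :=
    ⟨2, by norm_num, lt_of_le_of_lt prob_le_one (by norm_num)⟩
  obtain ⟨a, ⟨ha0, ha1⟩, ha2⟩ := exists_lt_of_csInf_lt hne hd
  have har : a < r := lt_of_lt_of_le ha2 (min_le_left _ _)
  have hat : a < η / (2 * t) := lt_of_lt_of_le ha2 (min_le_right _ _)
  set B := {z | a < abs ((y : Ω → ℝ) z - (g : Ω → ℝ) z)} with hB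
  have hBm : MeasurableSet B := measurableSet_lt measurable_const
    ((Lp.stronglyMeasurable y).measurable.sub (Lp.stronglyMeasurable g).measurable).abs
  have h1 := hδ B (lt_of_lt_of_le ha1 ((ENNReal.ofReal_le_ofReal har.le).trans hr))
  rw [← ofReal_integral_norm_eq_lintegral_enorm hxi.integrableOn] at h1
  have h2 : ∫ ω in B, ‖(x : Ω → ℝ) ω‖ ∂P < η / 2 :=
    (ENNReal.ofReal_lt_ofReal_iff (by positivity)).mp h1
  have hyi := L1.integrable_coeFn y
  have hI1 : Integrable (fun ω => ‖(x : Ω → ℝ) ω‖ - B.indicator (fun ω => ‖(x : Ω → ℝ) ω‖) ω) P :=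
    hxi.norm.sub (hxi.norm.indicator hBm)
  have hI2 : Integrable (fun ω => ‖(y : Ω → ℝ) ω‖ - (y : Ω → ℝ) ω * sg g ω) P :=
    hyi.norm.sub (integrable_mul_sg g y)
  have hI3 : Integrable (fun ω => (‖(y : Ω → ℝ) ω‖ - (y : Ω → ℝ) ω * sg g ω) - 2 * a) P :=
    hI2.sub (integrable_const _)
  have key : ∫ ω, ((‖(x : Ω → ℝ) ω‖ - B.indicator (fun ω => ‖(x : Ω → ℝ) ω‖) ω) +
      (t / 2) * ((‖(y : Ω → ℝ) ω‖ - (y : Ω → ℝ) ω * sg g ω) - 2 * a)) ∂P ≤
      ∫ ω, (1 / 2) * (‖((x + t • y : Lp ℝ 1 P) : Ω → ℝ) ω‖ +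
        ‖((x - t • y : Lp ℝ 1 P) : Ω → ℝ) ω‖) ∂P := by
    refine integral_mono_ae (hI1.add (hI3.const_mul _))
      (((L1.integrable_coeFn _).norm.add (L1.integrable_coeFn _).norm).const_mul _) ?_
    filter_upwards [Lp.coeFn_add x (t • y), Lp.coeFn_sub x (t • y), Lp.coeFn_smul t y]
      with ω e1 e2 e3
    rw [e1, e2, Pi.add_apply, Pi.sub_apply, e3, Pi.smul_apply, smul_eq_mul]
    simp only [Real.norm_eq_abs]
    set u := (x : Ω → ℝ) ω
    set v := (y : Ω → ℝ) ω with hv
    by_cases hω : ω ∈ B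
    · rw [Set.indicator_of_mem hω]
      have h3 : |t * v| ≤ (1 / 2) * (|u + t * v| + |u - t * v|) := by
        have := abs_sub (u + t * v) (u - t * v)
        rw [show u + t * v - (u - t * v) = 2 * (t * v) by ring, abs_mul, abs_two] at this
        linarith
      have h4 : -(v * sg g ω) ≤ |v| := by
        have := neg_abs_le (v * sg g ω)
        rw [abs_mul, abs_sg, mul_one] at this
        linarith
      rw [abs_mul, abs_of_pos ht] at h3
      nlinarith
    · rw [Set.indicator_of_notMem hω]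
      have h3 : |u| ≤ (1 / 2) * (|u + t * v| + |u - t * v|) := by
        have := abs_add_le (u + t * v) (u - t * v)
        rw [show u + t * v + (u - t * v) = 2 * u by ring, abs_mul, abs_two] at this
        linarith
      have h4 : |v - (g : Ω → ℝ) ω| ≤ a := not_lt.mp hω
      have h5 : |v| - v * sg g ω - 2 * a ≤ 0 := by
        rw [abs_le] at h4
        unfold sg
        split_ifs with h
        · rcases abs_cases v with h6 | h6 <;> linarith [h4.1, h4.2, h6.1]
        · rcases abs_cases v with h6 | h6 <;> linarith [h4.1, h4.2, h6.1, not_le.mp h]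
      nlinarith
  rw [integral_add hI1 (hI3.const_mul _), integral_const_mul, integral_const_mul,
    integral_add (L1.integrable_coeFn _).norm (L1.integrable_coeFn _).norm,
    ← L1.norm_eq_integral_norm, ← L1.norm_eq_integral_norm, integral_sub hI2 (integrable_const _),
    integral_sub hyi.norm (integrable_mul_sg g y), ← L1.norm_eq_integral_norm, ← sgFun_apply, hg,
    integral_sub hxi.norm (hxi.norm.indicator hBm), ← L1.norm_eq_integral_norm,
    integral_indicator hBm, hx, hy] at key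
  simp only [integral_const, probReal_univ, smul_eq_mul, one_mul] at key
  have h6 : t * a ≤ η / 2 := by
    rw [lt_div_iff₀ (by positivity)] at hat
    linarith
  nlinarith

end Crest.Agent.R125
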