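import Mathlib
import Crest.Prelude.Def_TreeProducts
import Crest.Agent.R125.Basic

set_option autoImplicit false

namespace Crest.Agent.R125

open MeasureTheory ProbabilityTheory Crest.AnalysisR.TreeProduct

/-- path product of a real family -/
def pp (g : List ℕ → ℝ) : List ℕ → ℝ
  | [] => 1
  | a :: v => pp g v * g (a :: v)

lemma pp_congr {g g' : List ℕ → ℝ} : ∀ v : List ℕ, (∀ u, u <:+ v → g u = g' u) → pp g v = pp g' v
  | [], _ => rfl
  | a :: v, h => by
    simp only [pp]
    rw [pp_congr v fun u hu => h u (hu.trans (List.suffix_cons a v)), h _ (List.suffix_refl _)]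

variable {Ω : Type} [MeasurableSpace Ω]

omit [MeasurableSpace Ω] in
lemma pathProduct_eq (W : List ℕ → Ω → ℝ) (ω : Ω) :
    ∀ v, pathProduct W v ω = pp (fun u => W u ω) v
  | [] => rfl
  | a :: v => by simp only [pathProduct, pp, pathProduct_eq W ω v]

lemma measurable_pp {α : Type*} [MeasurableSpace α] (g : α → List ℕ → ℝ)
    (hg : ∀ u, Measurable fun x => g x u) : ∀ v, Measurable fun x => pp (g x) v
  | [] => measurable_const
  | a :: v => (measurable_pp g hg v).mul (hg _)

variable {μ : Measure Ω} {W : List ℕ → Ω → ℝ}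

lemma indep_path (hm : ∀ v, Measurable (W v)) (hi : iIndepFun W μ) (v : List ℕ) (A : Finset ℕ)
    (σ : ℕ → ℝ) :
    IndepFun (pathProduct W v) (fun ω => ∑ a ∈ A, σ a * (W (a :: v) ω - 1)) μ := by
  classical
  set S : Finset (List ℕ) := v.tails.toFinset with hS
  set T : Finset (List ℕ) := A.image fun a => a :: v with hT
  have hST : Disjoint S T := by
    rw [Finset.disjoint_left]
    intro u hu hu'
    obtain ⟨a, -, rfl⟩ := Finset.mem_image.mp hu'
    have h1 : (a :: v) <:+ v := by simpa [hS, List.mem_tails] using hu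
    have := h1.length_le
    simp at this
  have h := hi.indepFun_finset S T hST hm
  let ext : (U : Finset (List ℕ)) → (U → ℝ) → List ℕ → ℝ :=
    fun U w u => if h : u ∈ U then w ⟨u, h⟩ else 1
  have hext : ∀ (U : Finset (List ℕ)) (u : List ℕ), Measurable fun w : U → ℝ => ext U w u := by
    intro U u
    by_cases h : u ∈ U
    · simp only [ext, dif_pos h]; exact measurable_pi_apply _
    · simp only [ext, dif_neg h]; exact measurable_const
  have h2 := h.comp (φ := fun w => pp (ext S w) v)
    (ψ := fun w => ∑ a ∈ A, σ a * (ext T w (a :: v) - 1))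
    (measurable_pp _ (hext S) v)
    (Finset.measurable_sum _ fun a _ => ((hext T _).sub measurable_const).const_mul _)
  convert h2 using 1
  · funext ω
    rw [pathProduct_eq]
    refine pp_congr v fun u hu => ?_
    have : u ∈ S := by simpa [hS, List.mem_tails] using hu
    simp [ext, this]
  · funext ω
    refine Finset.sum_congr rfl fun a ha => ?_
    have : a :: v ∈ T := Finset.mem_image_of_mem _ ha
    simp [ext, this]

lemma measurable_path (hm : ∀ v, Measurable (W v)) (v : List ℕ) : Measurable (pathProduct W v) := by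
  have : pathProduct W v = fun ω => pp (fun u => W u ω) v := funext fun ω => pathProduct_eq W ω v
  rw [this]
  exact measurable_pp _ hm v

lemma indep_path_abs (hm : ∀ v, Measurable (W v)) (hi : iIndepFun W μ) (v : List ℕ) (a : ℕ) :
    IndepFun (pathProduct W v) (W (a :: v)) μ := by
  have h := (indep_path hm hi v {a} fun _ => 1).comp (φ := id) (ψ := fun x : ℝ => x + 1)
    measurable_id (measurable_id.add_const 1)
  have e : W (a :: v) = (fun x : ℝ => x + 1) ∘ fun ω => ∑ a ∈ {a}, 1 * (W (a :: v) ω - 1) := by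
    funext ω
    simp
  rw [e]
  exact h

lemma integral_abs_mul {X Y : Ω → ℝ} (h : IndepFun X Y μ) (hX : Measurable X) (hY : Measurable Y) :
    ∫ ω, |X ω * Y ω| ∂μ = (∫ ω, |X ω| ∂μ) * ∫ ω, |Y ω| ∂μ := by
  have h2 := (h.comp (φ := fun x : ℝ => |x|) (ψ := fun x : ℝ => |x|) measurable_abs
    measurable_abs).integral_fun_mul_eq_mul_integral (hX.abs.aestronglyMeasurable)
    (hY.abs.aestronglyMeasurable)
  simp only [abs_mul]
  exact h2

lemma abs_integral_le_sqrt [IsProbabilityMeasure μ] {Y : Ω → ℝ} (hY : MemLp Y 2 μ)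
    (h0 : ∫ ω, Y ω ∂μ = 0) : ∫ ω, |Y ω| ∂μ ≤ Real.sqrt (variance Y μ) := by
  apply Real.le_sqrt_of_sq_le
  have h1 := variance_nonneg |Y| μ
  rw [variance_eq_sub hY.abs] at h1
  rw [variance_eq_sub hY, h0]
  have : ∫ ω, (|Y| ^ 2) ω ∂μ = ∫ ω, (Y ^ 2) ω ∂μ := by
    refine integral_congr_ae (Filter.Eventually.of_forall fun ω => ?_)
    simp
  have h3 : (∫ ω, |Y ω| ∂μ) = ∫ ω, |Y| ω ∂μ := rfl
  rw [h3]
  linarith

theorem good_product (ν : Measure ℝ) [IsProbabilityMeasure ν] (hpos : ν (Set.Ioi 0) = 1)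
    (hnc : ∀ c : ℝ, ν ≠ Measure.dirac c) (hmean : ∫ x, x ∂ν = 1)
    (hm2 : Integrable (fun x : ℝ => x ^ 2) ν) [IsProbabilityMeasure μ]
    (hW : IsRealization ν μ W) :
    ∃ c : ℝ, 0 < c ∧ ∀ n, ∃ x : productSpan μ W, Good c 1 n x := by
  obtain ⟨hm, hi, hlaw⟩ := hW
  have hL2 : MemLp (fun x : ℝ => x) 2 ν :=
    (memLp_two_iff_integrable_sq measurable_id.aestronglyMeasurable).mpr hm2
  have hint : ∀ (g : ℝ → ℝ), Measurable g → ∀ v, v ≠ [] → ∫ ω, g (W v ω) ∂μ = ∫ x, g x ∂ν := by
    intro g hg v hv
    rw [← hlaw v hv, integral_map (hm v).aemeasurable hg.aestronglyMeasurable]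
  have hWL2 : ∀ v, v ≠ [] → MemLp (W v) 2 μ := by
    intro v hv
    have : MemLp (fun x : ℝ => x) 2 (Measure.map (W v) μ) := by rw [hlaw v hv]; exact hL2
    exact this.comp_of_map (hm v).aemeasurable
  have hae : ∀ᵐ x ∂ν, 0 < x := by
    rw [ae_iff]
    have : {a : ℝ | ¬ 0 < a} = (Set.Ioi 0)ᶜ := by ext a; simp
    rw [this, prob_compl_eq_zero_iff measurableSet_Ioi, hpos]
  have habs : ∫ x, |x| ∂ν = 1 := by
    rw [← hmean]
    refine integral_congr_ae ?_
    filter_upwards [hae] with x hx using abs_of_pos hx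
  set c0 := ∫ x, |x - 1| ∂ν with hc0
  have hc0pos : 0 < c0 := by
    have hi1 : Integrable (fun x : ℝ => |x - 1|) ν :=
      ((hL2.integrable one_le_two).sub (integrable_const 1)).abs
    rcases (integral_nonneg (μ := ν) (f := fun x : ℝ => |x - 1|)
      fun x => abs_nonneg _).lt_or_eq with h | h
    · exact h
    · exfalso
      have h1 := (integral_eq_zero_iff_of_nonneg (fun x => abs_nonneg _) hi1).mp h.symm
      have h2 : (fun x : ℝ => x) =ᵐ[ν] fun _ => 1 := by
        filter_upwards [h1] with x hx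
        have : |x - 1| = 0 := hx
        rw [abs_eq_zero] at this
        linarith
      have h3 : Measure.map (fun x : ℝ => x) ν = Measure.map (fun _ => (1 : ℝ)) ν :=
        Measure.map_congr h2
      rw [Measure.map_id', Measure.map_const] at h3
      exact hnc 1 (by simpa using h3)
  have hP : ∀ v, Integrable (pathProduct W v) μ ∧ ∫ ω, |pathProduct W v ω| ∂μ = 1 := by
    intro v
    induction v with
    | nil => exact ⟨integrable_const _, by simp [pathProduct]⟩
    | cons a v ih =>
      refine ⟨(indep_path_abs hm hi v a).integrable_mul ih.1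
        ((hWL2 _ (by simp)).integrable one_le_two), ?_⟩
      have := integral_abs_mul (indep_path_abs hm hi v a) (measurable_path hm v) (hm _)
      rw [ih.2, hint _ measurable_abs _ (by simp), habs, one_mul] at this
      exact this
  let b : List ℕ → productSpan μ W := fun v => ⟨(hP v).1.toL1 _, Submodule.le_topologicalClosure _
    (Submodule.subset_span ⟨v, (hP v).1.coeFn_toL1⟩)⟩
  have hb : ∀ v, ((b v : Lp ℝ 1 μ) : Ω → ℝ) =ᵐ[μ] pathProduct W v := fun v => (hP v).1.coeFn_toL1
  have hnorm : ∀ (v : List ℕ) (A : Finset ℕ) (σ : ℕ → ℝ),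
      ‖∑ a ∈ A, σ a • (b (a :: v) - b v)‖ = ∫ ω, |∑ a ∈ A, σ a * (W (a :: v) ω - 1)| ∂μ := by
    intro v A σ
    have h1 := integral_abs_mul (indep_path hm hi v A σ) (measurable_path hm v)
      (Finset.measurable_sum _ fun a _ => ((hm _).sub measurable_const).const_mul _)
    rw [(hP v).2, one_mul] at h1
    rw [← h1, ← Submodule.norm_coe, L1.norm_eq_integral_norm, Submodule.coe_sum]
    refine integral_congr_ae ?_
    have h2 : ∀ᵐ ω ∂μ, ∀ a : ℕ, ((((σ a • (b (a :: v) - b v) : productSpan μ W) : Lp ℝ 1 μ)) : Ω → ℝ) ω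
        = pathProduct W v ω * (σ a * (W (a :: v) ω - 1)) := by
      rw [ae_all_iff]
      intro a
      rw [Submodule.coe_smul, Submodule.coe_sub]
      filter_upwards [Lp.coeFn_smul (σ a) ((b (a :: v) : Lp ℝ 1 μ) - (b v : Lp ℝ 1 μ)),
        Lp.coeFn_sub (b (a :: v) : Lp ℝ 1 μ) (b v : Lp ℝ 1 μ), hb (a :: v), hb v] with ω e1 e2 e3 e4
      rw [e1, Pi.smul_apply, e2, Pi.sub_apply, e3, e4, smul_eq_mul]
      simp only [pathProduct]
      ring
    filter_upwards [Lp.coeFn_fun_finsetSum A
      (fun a => ((σ a • (b (a :: v) - b v) : productSpan μ W) : Lp ℝ 1 μ)), h2] with ω e1 e2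
    rw [e1, Real.norm_eq_abs, Finset.mul_sum]
    simp only [e2]
  refine ⟨min c0 1, by positivity, fun n => good_of_tree b n (fun s _ _ => ?_) (fun s a _ => ?_)
    (fun s _ => ⟨Real.sqrt (variance (fun x : ℝ => x) ν), fun A σ hσ => ?_⟩)⟩
  · have : ‖b s‖ = 1 := by
      rw [← Submodule.norm_coe]
      change ‖(hP s).1.toL1 _‖ = 1
      rw [L1.norm_of_fun_eq_integral_norm]
      exact (hP s).2
    rw [this]
    exact ⟨min_le_right _ _, le_rfl⟩
  · have := hnorm s {a} fun _ => 1
    simp only [Finset.sum_singleton, one_smul, one_mul] at this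
    rw [this, hint (fun x => |x - 1|) (by fun_prop) _ (by simp)]
    exact min_le_left _ _
  · rw [hnorm]
    have hY : ∀ a, MemLp (fun ω => σ a * (W (a :: s) ω - 1)) 2 μ := fun a =>
      ((hWL2 _ (by simp)).sub (memLp_const 1)).const_mul _
    have hsum : MemLp (fun ω => ∑ a ∈ A, σ a * (W (a :: s) ω - 1)) 2 μ :=
      memLp_finsetSum _ fun a _ => hY a
    have h0 : ∫ ω, ∑ a ∈ A, σ a * (W (a :: s) ω - 1) ∂μ = 0 := by
      rw [integral_finsetSum _ fun a _ => (hY a).integrable one_le_two]
      refine Finset.sum_eq_zero fun a _ => ?_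
      rw [integral_const_mul, integral_sub ((hWL2 _ (by simp)).integrable one_le_two)
        (integrable_const _), hint (fun x => x) measurable_id _ (by simp), hmean]
      simp
    refine (abs_integral_le_sqrt hsum h0).trans ?_
    rw [← Real.sqrt_mul (variance_nonneg _ _)]
    refine Real.sqrt_le_sqrt ?_
    have hvar := IndepFun.variance_sum (μ := μ) (s := A)
      (X := fun a ω => σ a * (W (a :: s) ω - 1)) (fun a _ => hY a) (fun a _ a' _ hne =>
        (hi.indepFun (i := a :: s) (j := a' :: s) (by simpa using hne)).comp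
          (φ := fun x : ℝ => σ a * (x - 1)) (ψ := fun x : ℝ => σ a' * (x - 1))
          (by fun_prop) (by fun_prop))
    have e : (∑ a ∈ A, fun ω => σ a * (W (a :: s) ω - 1)) =
        fun ω => ∑ a ∈ A, σ a * (W (a :: s) ω - 1) := by
      funext ω; simp
    rw [e] at hvar
    rw [hvar]
    calc _ ≤ ∑ a ∈ A, variance (fun x : ℝ => x) ν := by
          refine Finset.sum_le_sum fun a _ => ?_
          rw [variance_const_mul, variance_sub_const (hm _).aestronglyMeasurable]
          have h1 : variance (fun x : ℝ => x) ν = variance (W (a :: s)) μ := by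
            rw [← hlaw (a :: s) (by simp), variance_map measurable_id'.aemeasurable
              (hm _).aemeasurable]
            rfl
          rw [h1]
          have h2 : σ a ^ 2 ≤ 1 := by
            have := pow_le_pow_left₀ (abs_nonneg _) (hσ a) 2
            rwa [sq_abs, one_pow] at this
          have := variance_nonneg (W (a :: s)) μ
          nlinarith
      _ = _ := by rw [Finset.sum_const, nsmul_eq_mul, mul_comm]

end Crest.Agent.R125
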